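import Mathlib.Analysis.SpecialFunctions.Trigonometric.Basic

/-!
# P032: the end of the D-star argument

Abstract form: `O z` is the open set of directions of the arcs at `z`, read on the real line.
-/

open Set Filter Topology

namespace Vale.Agent.P032.Six

/-- data of an interval of directions -/
structure DInt (X : Set ℝ) (m M : ℝ) : Prop where
  lo : -(Real.pi / 2) < m
  lt : m < M
  hi : M < Real.pi / 2
  right : ∀ t, -(Real.pi / 2) < t → t < Real.pi / 2 → (t ∈ X ↔ m < t ∧ t < M)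
  left : ∀ t, -(Real.pi / 2) < t → t < Real.pi / 2 → (t + Real.pi ∈ X ↔ m < t ∧ t < M)
  meet : (m ≤ -(Real.pi / 6) ∧ -(Real.pi / 6) ≤ M) ∨ (m ≤ Real.pi / 6 ∧ Real.pi / 6 ≤ M)

/-- a point of the closure has points of the set near it, also inside an open interval -/
theorem mem_closure_Ioo {X : Set ℝ} {a b t : ℝ} (ht : t ∈ closure X) (ha : a < t) (hb : t < b) :
    t ∈ closure (X ∩ Ioo a b) := by
  rw [mem_closure_iff_nhds] at ht ⊢
  intro V hV
  obtain ⟨x, ⟨hxV, hxI⟩, hxX⟩ := ht (V ∩ Ioo a b) (inter_mem hV (Ioo_mem_nhds ha hb))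
  exact ⟨x, hxV, hxX, hxI⟩

/-- one side of a boundary point: the set is an interval -/
theorem dint_of {X : Set ℝ} (hX : IsOpen X) (h1 : -(Real.pi / 2) ∉ closure X)
    (h2 : Real.pi / 2 ∉ closure X)
    (hull : ∀ b, -(Real.pi / 2) < b → b < Real.pi / 2 →
      (b ∈ closure X ∧ b ∉ X ∨ b + Real.pi ∈ closure X ∧ b + Real.pi ∉ X) →
      (∀ t, -(Real.pi / 2) < t → t < Real.pi / 2 → (t ∈ X ∨ t + Real.pi ∈ X) → b < t) ∨
      (∀ t, -(Real.pi / 2) < t → t < Real.pi / 2 → (t ∈ X ∨ t + Real.pi ∈ X) → t < b))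
    (hm1 : -(Real.pi / 6) ∈ closure X ∨ Real.pi / 6 ∈ closure X)
    (hm2 : -(Real.pi / 6) + Real.pi ∈ closure X ∨ Real.pi / 6 + Real.pi ∈ closure X) :
    ∃ m M, DInt X m M := by
  have hpi := Real.pi_pos
  set I : Set ℝ := Ioo (-(Real.pi / 2)) (Real.pi / 2) with hI
  set R : Set ℝ := X ∩ I with hR
  set Q : Set ℝ := (fun t => t + Real.pi) ⁻¹' X ∩ I with hQ
  have hcont : Continuous fun t : ℝ => t + Real.pi := continuous_id.add continuous_const
  have hRo : IsOpen R := hX.inter isOpen_Ioo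
  have hQo : IsOpen Q := (hX.preimage hcont).inter isOpen_Ioo
  set L : Set ℝ := R ∪ Q with hL
  have hLI : L ⊆ I := union_subset inter_subset_right inter_subset_right
  have hLmem : ∀ t, t ∈ L ↔ t ∈ I ∧ (t ∈ X ∨ t + Real.pi ∈ X) := by
    intro t
    constructor
    · rintro (⟨h3, h4⟩ | ⟨h3, h4⟩)
      · exact ⟨h4, Or.inl h3⟩
      · exact ⟨h4, Or.inr h3⟩
    · rintro ⟨h4, h3 | h3⟩
      · exact Or.inl ⟨h3, h4⟩
      · exact Or.inr ⟨h3, h4⟩
  have hullL : ∀ b ∈ I, (b ∈ closure X ∧ b ∉ X ∨ b + Real.pi ∈ closure X ∧ b + Real.pi ∉ X) →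
      (∀ t ∈ L, b < t) ∨ (∀ t ∈ L, t < b) := by
    intro b hb hb2
    rcases hull b hb.1 hb.2 hb2 with h3 | h3
    · exact Or.inl fun t ht => h3 t (hLI ht).1 (hLI ht).2 ((hLmem t).1 ht).2
    · exact Or.inr fun t ht => h3 t (hLI ht).1 (hLI ht).2 ((hLmem t).1 ht).2
  -- a boundary point between two points of `L`
  have key : ∀ Y : Set ℝ, IsOpen Y → Y ⊆ L →
      (∀ b ∈ I, b ∈ closure Y → b ∉ Y →
        (b ∈ closure X ∧ b ∉ X ∨ b + Real.pi ∈ closure X ∧ b + Real.pi ∉ X)) →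
      ∀ p ∈ Y, ∀ q ∈ L, uIcc p q ⊆ Y := by
    intro Y hY hYL hYb p hp q hq
    by_contra hcon
    obtain ⟨x, hx, hxY⟩ := not_subset.1 hcon
    obtain ⟨b, hb, hbY⟩ : ∃ b ∈ uIcc p q, b ∈ closure Y ∧ b ∉ Y := by
      by_contra hno
      push Not at hno
      obtain ⟨t, -, htY, htc⟩ := isPreconnected_uIcc Y (closure Y)ᶜ hY isClosed_closure.isOpen_compl
        (fun t ht => by
          by_cases h3 : t ∈ closure Y
          · exact Or.inl (hno t ht h3)
          · exact Or.inr h3) ⟨p, left_mem_uIcc, hp⟩ ⟨x, hx, fun h3 => hxY (hno x hx h3)⟩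
      exact htc (subset_closure htY)
    have hpI := hLI (hYL hp)
    have hqI := hLI hq
    have hbI : b ∈ I := by
      rcases le_total p q with h3 | h3
      · rw [uIcc_of_le h3] at hb
        exact ⟨lt_of_lt_of_le hpI.1 hb.1, lt_of_le_of_lt hb.2 hqI.2⟩
      · rw [uIcc_of_ge h3] at hb
        exact ⟨lt_of_lt_of_le hqI.1 hb.1, lt_of_le_of_lt hb.2 hpI.2⟩
    rcases hullL b hbI (hYb b hbI hbY.1 hbY.2) with h3 | h3
    · have h4 := h3 p (hYL hp)
      have h5 := h3 q hq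
      rcases le_total p q with h6 | h6
      · rw [uIcc_of_le h6] at hb; exact absurd hb.1 (not_le.2 h4)
      · rw [uIcc_of_ge h6] at hb; exact absurd hb.1 (not_le.2 h5)
    · have h4 := h3 p (hYL hp)
      have h5 := h3 q hq
      rcases le_total p q with h6 | h6
      · rw [uIcc_of_le h6] at hb; exact absurd hb.2 (not_le.2 h5)
      · rw [uIcc_of_ge h6] at hb; exact absurd hb.2 (not_le.2 h4)
  have hRb : ∀ b ∈ I, b ∈ closure R → b ∉ R →
      (b ∈ closure X ∧ b ∉ X ∨ b + Real.pi ∈ closure X ∧ b + Real.pi ∉ X) := by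
    intro b hb h3 h4
    exact Or.inl ⟨closure_mono inter_subset_left h3, fun h5 => h4 ⟨h5, hb⟩⟩
  have hQcl : ∀ b ∈ closure Q, b + Real.pi ∈ closure X := by
    intro b h3
    have h4 : b ∈ closure ((fun t => t + Real.pi) ⁻¹' X) := closure_mono inter_subset_left h3
    exact map_mem_closure (f := fun t : ℝ => t + Real.pi) hcont h4 fun t ht => ht
  have hQb : ∀ b ∈ I, b ∈ closure Q → b ∉ Q →
      (b ∈ closure X ∧ b ∉ X ∨ b + Real.pi ∈ closure X ∧ b + Real.pi ∉ X) := by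
    intro b hb h3 h4
    exact Or.inr ⟨hQcl b h3, fun h5 => h4 ⟨h5, hb⟩⟩
  -- closures
  have hclR : ∀ t ∈ I, t ∈ closure X → t ∈ closure R := fun t ht h3 =>
    mem_closure_Ioo h3 ht.1 ht.2
  have hclQ : ∀ t ∈ I, t + Real.pi ∈ closure X → t ∈ closure Q := by
    intro t ht h3
    rw [mem_closure_iff_nhds] at h3 ⊢
    intro V hV
    have hc2 : Continuous fun t : ℝ => t - Real.pi := continuous_id.sub continuous_const
    have hV' : (fun t => t - Real.pi) ⁻¹' (V ∩ I) ∈ 𝓝 (t + Real.pi) := by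
      refine hc2.continuousAt.preimage_mem_nhds ?_
      rw [add_sub_cancel_right]
      exact inter_mem hV (Ioo_mem_nhds ht.1 ht.2)
    obtain ⟨x, hx, hxX⟩ := h3 _ hV'
    refine ⟨x - Real.pi, hx.1, ?_, hx.2⟩
    show x - Real.pi + Real.pi ∈ X
    rw [sub_add_cancel]; exact hxX
  have e1 : -(Real.pi / 6) ∈ I := ⟨by linarith, by linarith⟩
  have e2 : Real.pi / 6 ∈ I := ⟨by linarith, by linarith⟩
  have hRne : R.Nonempty := by
    rcases hm1 with h3 | h3
    · exact closure_nonempty_iff.1 ⟨_, hclR _ e1 h3⟩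
    · exact closure_nonempty_iff.1 ⟨_, hclR _ e2 h3⟩
  have hQne : Q.Nonempty := by
    rcases hm2 with h3 | h3
    · exact closure_nonempty_iff.1 ⟨_, hclQ _ e1 h3⟩
    · exact closure_nonempty_iff.1 ⟨_, hclQ _ e2 h3⟩
  obtain ⟨r0, hr0⟩ := hRne
  obtain ⟨q0, hq0⟩ := hQne
  have hLR : L ⊆ R := fun q hq => key R hRo subset_union_left hRb r0 hr0 q hq right_mem_uIcc
  have hLQ : L ⊆ Q := fun q hq => key Q hQo subset_union_right hQb q0 hq0 q hq right_mem_uIcc
  have hLo : IsOpen L := hRo.union hQo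
  have hLc : IsPreconnected L := by
    refine (ordConnected_iff.2 fun p hp q hq hpq => ?_).isPreconnected
    have h3 := key R hRo subset_union_left hRb p (hLR hp) q hq
    rw [uIcc_of_le hpq] at h3
    exact h3.trans subset_union_left
  have hLne : L.Nonempty := ⟨r0, Or.inl hr0⟩
  have hbb : BddBelow L := ⟨-(Real.pi / 2), fun t ht => (hLI ht).1.le⟩
  have hba : BddAbove L := ⟨Real.pi / 2, fun t ht => (hLI ht).2.le⟩
  set m := sInf L with hm
  set M := sSup L with hM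
  have hsub : Ioo m M ⊆ L := (IsConnected.Ioo_csInf_csSup_subset ⟨hLne, hLc⟩ hbb hba)
  have hmL : m ∉ L := by
    intro h3
    obtain ⟨δ, hδ, hball⟩ := Metric.isOpen_iff.1 hLo m h3
    have h4 : m - δ / 2 ∈ L := hball (by
      rw [Metric.mem_ball, Real.dist_eq, abs_of_neg (by linarith)]; linarith)
    have := csInf_le hbb h4
    linarith
  have hML : M ∉ L := by
    intro h3
    obtain ⟨δ, hδ, hball⟩ := Metric.isOpen_iff.1 hLo M h3
    have h4 : M + δ / 2 ∈ L := hball (by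
      rw [Metric.mem_ball, Real.dist_eq, abs_of_pos (by linarith)]; linarith)
    have := le_csSup hba h4
    linarith
  have hLIoo : ∀ t ∈ L, m < t ∧ t < M := by
    intro t ht
    refine ⟨lt_of_le_of_ne (csInf_le hbb ht) ?_, lt_of_le_of_ne (le_csSup hba ht) ?_⟩
    · rintro h3; exact hmL (by rw [h3]; exact ht)
    · rintro h3; exact hML (by rw [← h3]; exact ht)
  have hclm : m ∈ closure L := csInf_mem_closure hLne hbb
  have hclM : M ∈ closure L := csSup_mem_closure hLne hba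
  have hclLX : closure L ⊆ closure X := closure_mono (hLR.trans inter_subset_left)
  have hm0 : -(Real.pi / 2) < m := by
    refine lt_of_le_of_ne (le_csInf hLne fun t ht => (hLI ht).1.le) fun h3 => h1 ?_
    rw [h3]; exact hclLX hclm
  have hM0 : M < Real.pi / 2 := by
    refine lt_of_le_of_ne (csSup_le hLne fun t ht => (hLI ht).2.le) fun h3 => h2 ?_
    rw [← h3]; exact hclLX hclM
  have hmM : m < M := by
    have := hLIoo r0 (Or.inl hr0); linarith
  have hRI : ∀ t ∈ I, (t ∈ X ↔ m < t ∧ t < M) := by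
    intro t ht
    constructor
    · intro h3; exact hLIoo t (Or.inl ⟨h3, ht⟩)
    · intro h3; exact (hLR (hsub h3)).1
  have hQI : ∀ t ∈ I, (t + Real.pi ∈ X ↔ m < t ∧ t < M) := by
    intro t ht
    constructor
    · intro h3; exact hLIoo t (Or.inr ⟨h3, ht⟩)
    · intro h3; exact (hLQ (hsub h3)).1
  have hclRI : closure R ⊆ Icc m M := by
    refine closure_minimal (fun t ht => ?_) isClosed_Icc
    have := hLIoo t (Or.inl ht)
    exact ⟨this.1.le, this.2.le⟩
  refine ⟨m, M, hm0, hmM, hM0, fun t h3 h4 => hRI t ⟨h3, h4⟩, fun t h3 h4 => hQI t ⟨h3, h4⟩, ?_⟩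
  rcases hm1 with h3 | h3
  · exact Or.inl (hclRI (hclR _ e1 h3))
  · exact Or.inr (hclRI (hclR _ e2 h3))

/-- **The end.** -/
theorem dstar_end {α : Type*} (S : Set α) (O : α → Set ℝ) (hO : ∀ z ∈ S, IsOpen (O z))
    (h1 : ∀ z ∈ S, -(Real.pi / 2) ∉ closure (O z)) (h2 : ∀ z ∈ S, Real.pi / 2 ∉ closure (O z))
    (hull : ∀ z ∈ S, ∀ b, -(Real.pi / 2) < b → b < Real.pi / 2 →
      (b ∈ closure (O z) ∧ b ∉ O z ∨ b + Real.pi ∈ closure (O z) ∧ b + Real.pi ∉ O z) →
      (∀ t, -(Real.pi / 2) < t → t < Real.pi / 2 → (t ∈ O z ∨ t + Real.pi ∈ O z) → b < t) ∨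
      (∀ t, -(Real.pi / 2) < t → t < Real.pi / 2 → (t ∈ O z ∨ t + Real.pi ∈ O z) → t < b))
    (hm1 : ∀ z ∈ S, -(Real.pi / 6) ∈ closure (O z) ∨ Real.pi / 6 ∈ closure (O z))
    (hm2 : ∀ z ∈ S, -(Real.pi / 6) + Real.pi ∈ closure (O z) ∨
      Real.pi / 6 + Real.pi ∈ closure (O z))
    (next : ∀ z ∈ S, ∀ b, -(Real.pi / 2) < b → b < Real.pi / 2 → b ∈ closure (O z) → b ∉ O z →
      ∃ v ∈ S, Disjoint (O v) (O z) ∧ b + Real.pi ∈ closure (O v) ∧ b + Real.pi ∉ O v) :
    S = ∅ := by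
  have hpi := Real.pi_pos
  by_contra hne
  obtain ⟨z, hz⟩ := nonempty_iff_ne_empty.2 hne
  have hint : ∀ z ∈ S, ∃ m M, DInt (O z) m M := fun z hz =>
    dint_of (hO z hz) (h1 z hz) (h2 z hz) (hull z hz) (hm1 z hz) (hm2 z hz)
  have step : ∀ z ∈ S, ∀ m M, DInt (O z) m M → ∃ v ∈ S, ∃ M', DInt (O v) M M' := by
    intro z hz m M hI
    have hlo := hI.lo
    have hlt := hI.lt
    have hhi := hI.hi
    have hMcl : M ∈ closure (O z) := by
      rw [mem_closure_iff_nhds]
      intro V hV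
      obtain ⟨δ, hδ, hball⟩ := Metric.mem_nhds_iff.1 hV
      refine ⟨M - min (δ / 2) ((M - m) / 2), hball ?_, ?_⟩
      · have h3 : 0 < min (δ / 2) ((M - m) / 2) := lt_min (by linarith) (by linarith)
        rw [Metric.mem_ball, Real.dist_eq, abs_of_neg (by linarith)]
        have := min_le_left (δ / 2) ((M - m) / 2)
        linarith
      · have h3 : 0 < min (δ / 2) ((M - m) / 2) := lt_min (by linarith) (by linarith)
        have h4 := min_le_right (δ / 2) ((M - m) / 2)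
        exact (hI.right _ (by linarith) (by linarith)).2 ⟨by linarith, by linarith⟩
    have hMn : M ∉ O z := by
      intro h3
      have := (hI.right M (by linarith) hhi).1 h3
      linarith
    obtain ⟨v, hv, hdis, hcl, hn⟩ := next z hz M (by linarith) hhi hMcl hMn
    obtain ⟨m', M', hI'⟩ := hint v hv
    have hlo' := hI'.lo
    have hlt' := hI'.lt
    have hhi' := hI'.hi
    have hn2 : ¬ (m' < M ∧ M < M') := fun h3 => hn ((hI'.left M (by linarith) hhi).2 h3)
    have hcl2 : m' ≤ M ∧ M ≤ M' := by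
      by_contra hcon
      rw [mem_closure_iff_nhds] at hcl
      have hor : M < m' ∨ M' < M := by
        by_contra h3
        push Not at h3
        exact hcon ⟨h3.1, h3.2⟩
      obtain ⟨a, b, ha, hb, hab⟩ : ∃ a b, a < M ∧ M < b ∧
          ∀ t, a < t → t < b → -(Real.pi / 2) < t ∧ t < Real.pi / 2 ∧ ¬ (m' < t ∧ t < M') := by
        rcases hor with h3 | h3
        · refine ⟨-(Real.pi / 2), min m' (Real.pi / 2), by linarith, lt_min h3 hhi,
            fun t h4 h5 => ⟨h4, lt_of_lt_of_le h5 (min_le_right _ _), fun h6 => ?_⟩⟩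
          have := lt_of_lt_of_le h5 (min_le_left _ _)
          linarith [h6.1]
        · refine ⟨max M' (-(Real.pi / 2)), Real.pi / 2, max_lt h3 (by linarith), hhi,
            fun t h4 h5 => ⟨lt_of_le_of_lt (le_max_right _ _) h4, h5, fun h6 => ?_⟩⟩
          have := lt_of_le_of_lt (le_max_left M' (-(Real.pi / 2))) h4
          linarith [h6.2]
      obtain ⟨x, hx, hxX⟩ := hcl (Ioo (a + Real.pi) (b + Real.pi))
        (Ioo_mem_nhds (by linarith) (by linarith))
      obtain ⟨h4, h5, h6⟩ := hab (x - Real.pi) (by linarith [hx.1]) (by linarith [hx.2])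
      exact h6 ((hI'.left _ h4 h5).1 (by rw [sub_add_cancel]; exact hxX))
    have hM' : M ≠ M' := by
      intro h3
      obtain ⟨t, ht1, ht2⟩ := exists_between (max_lt hlt (by rw [h3]; exact hlt') : max m m' < M)
      have h4 := lt_of_le_of_lt (le_max_left m m') ht1
      have h5 := lt_of_le_of_lt (le_max_right m m') ht1
      exact disjoint_left.1 hdis ((hI'.right t (by linarith) (by linarith)).2 ⟨h5, by linarith⟩)
        ((hI.right t (by linarith) (by linarith)).2 ⟨h4, ht2⟩)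
    have hm' : m' = M := by
      by_contra h3
      exact hn2 ⟨lt_of_le_of_ne hcl2.1 h3, lt_of_le_of_ne hcl2.2 hM'⟩
    subst hm'
    exact ⟨v, hv, M', hI'⟩
  obtain ⟨m0, m1, hI0⟩ := hint z hz
  obtain ⟨z1, hz1, m2, hI1⟩ := step z hz _ _ hI0
  obtain ⟨z2, hz2, m3, hI2⟩ := step z1 hz1 _ _ hI1
  obtain ⟨z3, hz3, m4, hI3⟩ := step z2 hz2 _ _ hI2
  obtain ⟨z4, hz4, m5, hI4⟩ := step z3 hz3 _ _ hI3
  have a0 := hI0.lt
  have a1 := hI1.lt
  have a2 := hI2.lt
  have a3 := hI3.lt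
  have a4 := hI4.lt
  rcases hI0.meet with b0 | b0 <;> rcases hI1.meet with b1 | b1 <;>
    rcases hI2.meet with b2 | b2 <;> rcases hI3.meet with b3 | b3 <;>
    rcases hI4.meet with b4 | b4 <;> linarith [b0.1, b0.2, b1.1, b1.2, b2.1, b2.2, b3.1, b3.2,
      b4.1, b4.2]

end Vale.Agent.P032.Six
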