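import Vale.Agent.P032.S5.H913.Sides

/-!
# P032: the hull lemma for a D-star pair

`z`, `y` with the same two colours outside the broken pairs.  If a point `v` of `S(z)` has one of
these two colours, the lines of the arcs of `S(z)` are on one side of the line `z v`.
-/

open Set Filter Topology Metric

noncomputable section

namespace Vale.Agent.P032.Six

variable {k : ℕ} {U : Fin k → Set ℂ} {T : ℂ → Set (Fin k)}

/-- the colour `c` of the far half branch of `S(q)` at `z`, swept to `v` -/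
theorem Harm.hull_aux (h : Irr U T) {z y v q : ℂ} {A B : Set (Fin k)} (hz : Harm T z A)
    (hy : Harm T y B) (hC : T z \ A = T y \ B) (hyz : dist y z = 1) (hv : dist v z = 1)
    {c d : Fin k} (hcd : T z \ A = {c, d}) (hne : c ≠ d)
    (hside : ∀ᶠ g in 𝓝 z, (c ∈ T g → 1 ≤ dist y g) ∧ (d ∈ T g → dist y g ≤ 1))
    (hq : dist q z = 1) (hJ : ∀ᶠ x in 𝓝[sphere z 1] q, A ⊆ T x) :
    (0 < cr (z - q) (z - y) * cr (z - q) (z - v) →
      (∀ᶠ g in 𝓝 v, c ∈ T g → 1 ≤ dist z g) ∧ ∀ᶠ g in 𝓝 v, d ∈ T g → dist z g ≤ 1) ∧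
    (cr (z - q) (z - y) * cr (z - q) (z - v) < 0 →
      (∀ᶠ g in 𝓝 v, c ∈ T g → dist z g ≤ 1) ∧ ∀ᶠ g in 𝓝 v, d ∈ T g → 1 ≤ dist z g) := by
  have hzq : dist z q = 1 := by rw [dist_comm]; exact hq
  have hzv : dist z v = 1 := by rw [dist_comm]; exact hv
  have hcz : c ∈ T z := by
    have : c ∈ T z \ A := by rw [hcd]; simp
    exact this.1
  have hdz : d ∈ T z := by
    have : d ∈ T z \ A := by rw [hcd]; simp
    exact this.1
  have e0 : ∀ τ : ℝ, q + (z - q) * cis (τ * 0) = z := by intro τ; simp [cis]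
  by_cases hcr : cr (z - q) (z - y) = 0
  · rw [hcr, zero_mul]
    exact ⟨fun h => absurd h (lt_irrefl _), fun h => absurd h (lt_irrefl _)⟩
  have hqy : q ≠ y := by
    rintro rfl
    apply hcr; unfold cr; ring
  have hqy2 : q + y ≠ 2 * z := by
    intro h1
    apply hcr
    have h2 : z - y = -(z - q) := by linear_combination -h1
    rw [h2]; unfold cr; simp; ring
  obtain ⟨τ, hτ, hs, c', d', hcd', hne', ho, hi⟩ :=
    hy.solid h hz hC.symm (by rw [dist_comm]; exact hyz) hq hJ hqy hqy2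
  have hτ2 : τ * τ = 1 := by rcases hτ with rfl | rfl <;> norm_num
  have hcc : c' = c := by
    have h1 : c' ∈ T z \ A := by rw [hcd']; simp
    rw [hcd] at h1
    rcases h1 with h1 | h1
    · exact h1
    · exfalso
      have h1 : c' = d := h1
      obtain ⟨t, ⟨h2, h3⟩, h4⟩ := (ho.and ((tendsto_arc q z τ).eventually hside)).exists
      have := h4.2 (by rw [h3, h1]; rfl)
      rw [dist_comm] at this
      linarith
  have hdd : d' = d := by
    have h1 : d' ∈ T z \ A := by rw [hcd']; simp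
    rw [hcd] at h1
    rcases h1 with h1 | h1
    · exact absurd (hcc.trans h1.symm) hne'
    · exact h1
  subst hcc
  subst hdd
  -- far half branch
  have far : ∀ᶠ t : ℝ in 𝓝[>] 0, T (q + (z - q) * cis (τ * t)) = {c'} := ho.mono fun t ht => ht.2
  have near : ∀ᶠ t : ℝ in 𝓝[>] 0, T (q + (z - q) * cis (-τ * t)) = {d'} := hi.mono fun t ht => ht.2
  have outw : ∀ (σ : ℝ) (i : Fin k), i ∈ T z →
      (∀ᶠ t : ℝ in 𝓝[>] 0, T (q + (z - q) * cis (σ * t)) = {i}) → 0 < σ * cr (z - q) (z - v) →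
      ∀ᶠ g in 𝓝 v, i ∈ T g → 1 ≤ dist z g := by
    intro σ i hiz hT hsg
    obtain ⟨ε, hε, he⟩ := mem_nhdsGT_iff_exists_Ioo_subset.1 (hT.and (arc_out hzv hsg))
    have hε : 0 < ε := hε
    refine h.sweep_out (branch_conn q z σ (r := ε / 2))
      (x := q + (z - q) * cis (σ * (ε / 2 : ℝ))) ⟨0, ⟨le_rfl, by linarith⟩, e0 σ⟩
      ⟨ε / 2, ⟨by linarith, le_rfl⟩, rfl⟩ ?_ (he ⟨by linarith, by linarith⟩).2
    rintro _ ⟨t, ht, rfl⟩
    rcases eq_or_lt_of_le ht.1 with h3 | h3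
    · subst h3
      simp only [e0]; exact hiz
    · have := (he ⟨h3, by linarith [ht.2]⟩).1
      simp only [this]; rfl
  have inw : ∀ (σ : ℝ) (i : Fin k), i ∈ T z →
      (∀ᶠ t : ℝ in 𝓝[>] 0, T (q + (z - q) * cis (σ * t)) = {i}) → σ * cr (z - q) (z - v) < 0 →
      ∀ᶠ g in 𝓝 v, i ∈ T g → dist z g ≤ 1 := by
    intro σ i hiz hT hsg
    obtain ⟨ε, hε, he⟩ := mem_nhdsGT_iff_exists_Ioo_subset.1 (hT.and (arc_in hzv hsg))
    have hε : 0 < ε := hε
    refine h.sweep_in (branch_conn q z σ (r := ε / 2))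
      (x := q + (z - q) * cis (σ * (ε / 2 : ℝ))) ⟨0, ⟨le_rfl, by linarith⟩, e0 σ⟩
      ⟨ε / 2, ⟨by linarith, le_rfl⟩, rfl⟩ ?_ (he ⟨by linarith, by linarith⟩).2
    rintro _ ⟨t, ht, rfl⟩
    rcases eq_or_lt_of_le ht.1 with h3 | h3
    · subst h3
      simp only [e0]; exact hiz
    · have := (he ⟨h3, by linarith [ht.2]⟩).1
      simp only [this]; rfl
  have hsq : ∀ x : ℝ, x = τ * (τ * x) := fun x => by rw [← mul_assoc, hτ2, one_mul]
  constructor
  · intro hH
    have h5 : 0 < τ * cr (z - q) (z - v) := by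
      have : 0 < (τ * cr (z - q) (z - y)) * (τ * cr (z - q) (z - v)) := by
        have e : (τ * cr (z - q) (z - y)) * (τ * cr (z - q) (z - v)) =
          (τ * τ) * (cr (z - q) (z - y) * cr (z - q) (z - v)) := by ring
        rw [e, hτ2, one_mul]; exact hH
      exact (mul_pos_iff_of_pos_left hs).1 this
    exact ⟨outw τ c' hcz far h5, inw (-τ) d' hdz near (by linarith)⟩
  · intro hH
    have h5 : τ * cr (z - q) (z - v) < 0 := by
      have : (τ * cr (z - q) (z - y)) * (τ * cr (z - q) (z - v)) < 0 := by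
        have e : (τ * cr (z - q) (z - y)) * (τ * cr (z - q) (z - v)) =
          (τ * τ) * (cr (z - q) (z - y) * cr (z - q) (z - v)) := by ring
        rw [e, hτ2, one_mul]; exact hH
      by_contra hcon
      push Not at hcon
      nlinarith [mul_nonneg hs.le hcon]
    exact ⟨inw τ c' hcz far h5, outw (-τ) d' hdz near (by linarith)⟩

/-- **Hull lemma.** -/
theorem Harm.hull (h : Irr U T) {z y v q q' : ℂ} {A B : Set (Fin k)} (hz : Harm T z A)
    (hy : Harm T y B) (hC : T z \ A = T y \ B) (hyz : dist y z = 1) (hv : dist v z = 1)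
    {s : Fin k} (hs : s ∈ T z \ A) (hsv : s ∈ T v)
    (hq : dist q z = 1) (hJ : ∀ᶠ x in 𝓝[sphere z 1] q, A ⊆ T x)
    (hq' : dist q' z = 1) (hJ' : ∀ᶠ x in 𝓝[sphere z 1] q', A ⊆ T x)
    (h1 : 0 < cr (z - q) (z - y) * cr (z - q) (z - v))
    (h2 : cr (z - q') (z - y) * cr (z - q') (z - v) < 0) : False := by
  obtain ⟨c, d, hcd, hne, hside⟩ := hz.sides h hy hC hyz
  obtain ⟨a1, a2⟩ := (hz.hull_aux h hy hC hyz hv hcd hne hside hq hJ).1 h1
  obtain ⟨b1, b2⟩ := (hz.hull_aux h hy hC hyz hv hcd hne hside hq' hJ').2 h2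
  have key : ∀ i, i ∈ T z → i ∈ T v → (∀ᶠ g in 𝓝 v, i ∈ T g → 1 ≤ dist z g) →
      (∀ᶠ g in 𝓝 v, i ∈ T g → dist z g ≤ 1) → False := by
    intro i hiz hiv e1 e2
    obtain ⟨w, hw, hw1, hw2⟩ := ((h.pure v i hiv).and_eventually (e1.and e2)).exists
    have hiw : i ∈ T w := by rw [hw]; rfl
    have hd : dist z w = 1 := le_antisymm (hw2 hiw) (hw1 hiw)
    exact h.mx.notMem' (h.mem_of_single hw.subset) (by rw [dist_comm]; exact hd) (h.sub z hiz)
  have hsz := hs.1
  rw [hcd] at hs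
  rcases hs with h3 | h3
  · have h3 : s = c := h3
    subst h3
    exact key s hsz hsv a1 b1
  · have h3 : s = d := h3
    subst h3
    exact key s hsz hsv b2 a2

/-- the directions of the arcs, as angles; `n` is the axis of the D-star pair `z`, `z + n` -/
def DO (T : ℂ → Set (Fin k)) (n z : ℂ) : Set ℝ := {ψ | T (z + Complex.I * n * cis ψ) ⊆ T z}

theorem DO_open (h : Irr U T) (n z : ℂ) : IsOpen (DO T n z) := by
  rw [isOpen_iff_mem_nhds]
  intro ψ hψ
  have hc : Continuous fun t : ℝ => z + Complex.I * n * cis t :=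
    continuous_const.add (continuous_const.mul continuous_cis)
  exact (hc.continuousAt.eventually (h.nhd (z + Complex.I * n * cis ψ))).mono
    fun t ht => ht.trans hψ

theorem norm_In {n : ℂ} (hn : ‖n‖ = 1) (t : ℝ) : ‖Complex.I * n * cis t‖ = 1 := by
  rw [norm_mul, norm_mul, Complex.norm_I, hn, norm_cis]; norm_num

theorem dist_In {n : ℂ} (hn : ‖n‖ = 1) (z : ℂ) (t : ℝ) :
    dist (z + Complex.I * n * cis t) z = 1 := by
  rw [dist_eq_norm, add_sub_cancel_left, norm_In hn]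

/-- an arc at each direction of `DO` -/
theorem Harm.arc_DO (h : Irr U T) {z n : ℂ} {A : Set (Fin k)} (hz : Harm T z A) {ψ : ℝ}
    (hψ : ψ ∈ DO T n z) : ∀ᶠ x in 𝓝[sphere z 1] (z + Complex.I * n * cis ψ), A ⊆ T x := by
  filter_upwards [mem_nhdsWithin_of_mem_nhds (h.nhd (z + Complex.I * n * cis ψ)),
    self_mem_nhdsWithin] with x hx hx1
  exact hz.h1 x hx1 (hx.trans hψ)

theorem cr_In {n : ℂ} (hn : ‖n‖ = 1) (z : ℂ) (ψ β : ℝ) :
    cr (z - (z + Complex.I * n * cis ψ)) (z - (z + n)) *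
      cr (z - (z + Complex.I * n * cis ψ)) (z - (z + Complex.I * n * cis β)) =
      Real.cos ψ * Real.sin (ψ - β) := by
  have h1 : n.re ^ 2 + n.im ^ 2 = 1 := by
    have := Complex.sq_norm n
    rw [hn, Complex.normSq_apply] at this
    nlinarith
  have e1 : cr (z - (z + Complex.I * n * cis ψ)) (z - (z + n)) = -Real.cos ψ := by
    have h2 : (cis ψ).re = Real.cos ψ := cis_re ψ
    have h3 : (cis ψ).im = Real.sin ψ := cis_im ψ
    unfold cr
    simp only [Complex.sub_re, Complex.sub_im, Complex.add_re, Complex.add_im, Complex.mul_re,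
      Complex.mul_im, Complex.I_re, Complex.I_im, h2, h3]
    linear_combination (-Real.cos ψ) * h1
  have e2 : cr (z - (z + Complex.I * n * cis ψ)) (z - (z + Complex.I * n * cis β)) =
      Real.sin (β - ψ) := by
    have h2 : (cis ψ).re = Real.cos ψ := cis_re ψ
    have h3 : (cis ψ).im = Real.sin ψ := cis_im ψ
    have h4 : (cis β).re = Real.cos β := cis_re β
    have h5 : (cis β).im = Real.sin β := cis_im β
    rw [Real.sin_sub]
    unfold cr
    simp only [Complex.sub_re, Complex.sub_im, Complex.add_re, Complex.add_im, Complex.mul_re,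
      Complex.mul_im, Complex.I_re, Complex.I_im, h2, h3, h4, h5]
    linear_combination (Real.sin β * Real.cos ψ - Real.cos β * Real.sin ψ) * h1
  rw [e1, e2]
  have : β - ψ = -(ψ - β) := by ring
  rw [this, Real.sin_neg]; ring

/-- **Hull lemma**, angles. -/
theorem Harm.hull_psi (h : Irr U T) {z n : ℂ} (hn : ‖n‖ = 1) {A B : Set (Fin k)}
    (hz : Harm T z A) (hy : Harm T (z + n) B) (hC : T z \ A = T (z + n) \ B) {b β : ℝ}
    (hb1 : -(Real.pi / 2) < b) (hb2 : b < Real.pi / 2) (hβ : β = b ∨ β = b + Real.pi)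
    {s : Fin k} (hs : s ∈ T z \ A) (hsv : s ∈ T (z + Complex.I * n * cis β)) :
    (∀ t, -(Real.pi / 2) < t → t < Real.pi / 2 →
      (t ∈ DO T n z ∨ t + Real.pi ∈ DO T n z) → b < t) ∨
    (∀ t, -(Real.pi / 2) < t → t < Real.pi / 2 →
      (t ∈ DO T n z ∨ t + Real.pi ∈ DO T n z) → t < b) := by
  have hpi := Real.pi_pos
  have hyz : dist (z + n) z = 1 := by rw [dist_eq_norm, add_sub_cancel_left, hn]
  set L : Set ℝ := {t | t ∈ DO T n z ∨ t + Real.pi ∈ DO T n z} with hL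
  have hLo : IsOpen L := by
    have h1 := DO_open h n z
    exact h1.union (h1.preimage (continuous_id.add continuous_const))
  by_contra hcon
  push Not at hcon
  obtain ⟨⟨t1, h1a, h1b, h1c, h1d⟩, t2, h2a, h2b, h2c, h2d⟩ := hcon
  have h1c : t1 ∈ L := h1c
  have h2c : t2 ∈ L := h2c
  -- strict versions
  obtain ⟨s1, g1a, g1b, g1c⟩ : ∃ s1, -(Real.pi / 2) < s1 ∧ s1 < b ∧ s1 ∈ L := by
    obtain ⟨δ, hδ, hball⟩ := Metric.isOpen_iff.1 hLo t1 h1c
    refine ⟨t1 - min (δ / 2) ((t1 + Real.pi / 2) / 2), ?_, ?_, hball ?_⟩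
    · have := min_le_right (δ / 2) ((t1 + Real.pi / 2) / 2)
      linarith
    · have : 0 < min (δ / 2) ((t1 + Real.pi / 2) / 2) := lt_min (by linarith) (by linarith)
      linarith
    · have h3 : 0 < min (δ / 2) ((t1 + Real.pi / 2) / 2) := lt_min (by linarith) (by linarith)
      have := min_le_left (δ / 2) ((t1 + Real.pi / 2) / 2)
      rw [mem_ball, Real.dist_eq, abs_of_neg (by linarith)]; linarith
  obtain ⟨s2, g2a, g2b, g2c⟩ : ∃ s2, b < s2 ∧ s2 < Real.pi / 2 ∧ s2 ∈ L := by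
    obtain ⟨δ, hδ, hball⟩ := Metric.isOpen_iff.1 hLo t2 h2c
    refine ⟨t2 + min (δ / 2) ((Real.pi / 2 - t2) / 2), ?_, ?_, hball ?_⟩
    · have : 0 < min (δ / 2) ((Real.pi / 2 - t2) / 2) := lt_min (by linarith) (by linarith)
      linarith
    · have := min_le_right (δ / 2) ((Real.pi / 2 - t2) / 2)
      linarith
    · have h3 : 0 < min (δ / 2) ((Real.pi / 2 - t2) / 2) := lt_min (by linarith) (by linarith)
      have := min_le_left (δ / 2) ((Real.pi / 2 - t2) / 2)
      rw [mem_ball, Real.dist_eq, abs_of_pos (by linarith)]; linarith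
  obtain ⟨ψ1, hψ1, e1⟩ : ∃ ψ ∈ DO T n z,
      Real.cos ψ * Real.sin (ψ - b) = Real.cos s1 * Real.sin (s1 - b) := by
    rcases g1c with h3 | h3
    · exact ⟨s1, h3, rfl⟩
    · refine ⟨s1 + Real.pi, h3, ?_⟩
      have e : s1 + Real.pi - b = (s1 - b) + Real.pi := by ring
      rw [e, Real.cos_add_pi, Real.sin_add_pi]; ring
  obtain ⟨ψ2, hψ2, e2⟩ : ∃ ψ ∈ DO T n z,
      Real.cos ψ * Real.sin (ψ - b) = Real.cos s2 * Real.sin (s2 - b) := by
    rcases g2c with h3 | h3
    · exact ⟨s2, h3, rfl⟩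
    · refine ⟨s2 + Real.pi, h3, ?_⟩
      have e : s2 + Real.pi - b = (s2 - b) + Real.pi := by ring
      rw [e, Real.cos_add_pi, Real.sin_add_pi]; ring
  have n1 : Real.cos ψ1 * Real.sin (ψ1 - b) < 0 := by
    rw [e1]
    have h3 : 0 < Real.cos s1 := Real.cos_pos_of_mem_Ioo ⟨g1a, by linarith⟩
    have h4 : Real.sin (s1 - b) < 0 := Real.sin_neg_of_neg_of_neg_pi_lt (by linarith) (by linarith)
    nlinarith
  have n2 : 0 < Real.cos ψ2 * Real.sin (ψ2 - b) := by
    rw [e2]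
    have h3 : 0 < Real.cos s2 := Real.cos_pos_of_mem_Ioo ⟨by linarith, g2b⟩
    have h4 : 0 < Real.sin (s2 - b) := Real.sin_pos_of_pos_of_lt_pi (by linarith) (by linarith)
    positivity
  have a1 := hz.arc_DO h hψ1
  have a2 := hz.arc_DO h hψ2
  rcases hβ with rfl | rfl
  · refine hz.hull h hy hC hyz (dist_In hn z β) hs hsv (dist_In hn z ψ2) a2 (dist_In hn z ψ1) a1
      ?_ ?_
    · rw [cr_In hn]; exact n2
    · rw [cr_In hn]; exact n1
  · have e3 : ∀ ψ, Real.cos ψ * Real.sin (ψ - (b + Real.pi)) =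
        -(Real.cos ψ * Real.sin (ψ - b)) := by
      intro ψ
      have e : ψ - (b + Real.pi) = (ψ - b) - Real.pi := by ring
      rw [e, Real.sin_sub_pi]; ring
    refine hz.hull h hy hC hyz (dist_In hn z _) hs hsv (dist_In hn z ψ1) a1 (dist_In hn z ψ2) a2
      ?_ ?_
    · rw [cr_In hn, e3]; linarith
    · rw [cr_In hn, e3]; linarith

end Vale.Agent.P032.Six
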