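import Vale.Agent.P032.S5.H913.Compl3

/-!
# P032: the complement rule at six coloured points

Frame `F6`: irredundant palettes, minimality, no `D`-points, clean unit circles about the points with
at least five colours.  If `z` has six colours and `v`, `q ∈ S(z)` have complementary palettes of
three colours, then `v` and `q` are antipodal.  No tameness.
-/

open Set Filter Topology Metric

noncomputable section

namespace Vale.Agent.P032.S5.H913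

open Vale.Agent.P032.Six Vale.Agent.P032.S5.H450

variable {U : Fin 6 → Set ℂ} {T : ℂ → Set (Fin 6)} {X : Set (Fin 6)} {z v q : ℂ}

/-- a six coloured point `c` near `ζ`, on the side of the exact arc -/
theorem side (F : F6 U T) {y c ζ : ℂ} {o η s0 : ℝ} (hz : T z = univ) (hc : T c = univ)
    (hy : dist y z = 1) (hs0 : s0 ∈ Ioo 0 η)
    (harc : ∀ s ∈ Ioo 0 η, (T (z + (y - z) * cis (o * s))).ncard = 2) (hcz : c ≠ z)
    (hcz2 : dist z c < 2)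
    (h1 : 0 < (dist (z + (y - z) * cis (o * s0)) c - 1) *
      (dist (z + (y - z) * cis (o * s0)) ζ - 1))
    (h2 : (dist y c - 1) * (dist (z + (y - z) * cis (o * s0)) ζ - 1) < 0) : False := by
  have h3 : (dist y c - 1) * (dist (z + (y - z) * cis (o * s0)) c - 1) < 0 := by
    obtain ⟨A, hA⟩ : ∃ A, A = dist (z + (y - z) * cis (o * s0)) ζ - 1 := ⟨_, rfl⟩
    obtain ⟨B, hB⟩ : ∃ B, B = dist (z + (y - z) * cis (o * s0)) c - 1 := ⟨_, rfl⟩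
    obtain ⟨C, hC⟩ : ∃ C, C = dist y c - 1 := ⟨_, rfl⟩
    rw [← hA, ← hB] at h1
    rw [← hA, ← hC] at h2
    rw [← hB, ← hC]
    by_contra hcon
    push Not at hcon
    have h4 : (C * A) * (B * A) < 0 := mul_neg_of_neg_of_pos h2 h1
    have h5 : 0 ≤ (C * B) * A ^ 2 := mul_nonneg hcon (sq_nonneg _)
    nlinarith
  obtain ⟨s, hs, hd⟩ := exists_cross hs0.1 h3
  have h4 := harc s ⟨hs.1, hs.2.trans hs0.2⟩
  have hm := arc_dist hy (o * s)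
  have h5 := three F hz hc hm hd hcz.symm (fun h6 => by
    have h7 : c = 2 * (z + (y - z) * cis (o * s)) - z := by linear_combination h6
    have h8 : dist z c = 2 := by
      rw [h7, dist_eq_norm, show z - (2 * (z + (y - z) * cis (o * s)) - z) =
        -(2 * ((z + (y - z) * cis (o * s)) - z)) by ring, norm_neg, norm_mul, ← dist_eq_norm, hm]
      norm_num
    linarith)
  omega

theorem Nd.mk' {c : ℂ} (hX : X.ncard = 3) (dv : dist c v = 1) (dq : dist c q = 1) (Tv : T v = X)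
    (Tq : T q = Xᶜ) (op : v + q ≠ 2 * c) : Nd T X c v q := ⟨hX, dv, dq, Tv, Tq, op⟩

theorem sgp {y c : ℂ} {x : ℝ} (h1 : dist c y ^ 2 - 1 = 2 * x) (h3 : 0 < x) :
    0 < dist y c - 1 := by
  rw [dist_comm] at h1
  have h2 := dist_nonneg (x := y) (y := c)
  nlinarith

theorem sgm {y c : ℂ} {x : ℝ} (h1 : dist c y ^ 2 - 1 = 2 * x) (h3 : x < 0) :
    dist y c - 1 < 0 := by
  rw [dist_comm] at h1
  have h2 := dist_nonneg (x := y) (y := c)
  nlinarith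

/-- the two corners -/
theorem corners (F : F6 U T) {y w a1 b1 a2 b2 ζ : ℂ} {o η s0 : ℝ} (hz : T z = univ)
    (hyz : dist y z = 1) (hs0 : s0 ∈ Ioo 0 η)
    (harc : ∀ s ∈ Ioo 0 η, (T (z + (y - z) * cis (o * s))).ncard = 2)
    (hoff : dist (z + (y - z) * cis (o * s0)) ζ - 1 ≠ 0)
    (hb1 : dist b1 w = 1) (hb2 : dist b2 w = 1) (hb : b1 ≠ b2) (hop : b1 + b2 ≠ 2 * w)
    (hpp : 0 < cr (b1 + b2 - 2 * w) (a1 - y) * cr (b1 + b2 - 2 * w) (a2 - y))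
    (h1y : dist (a1 + b1 - w) y = 1) (h2y : dist (a2 + b2 - w) y = 1)
    (hM1 : T (a1 + b2 - w) = univ) (hM2 : T (a2 + b1 - w) = univ)
    (e1 : 0 < (dist (z + (y - z) * cis (o * s0)) (a1 + b2 - w) - 1) *
      (dist (z + (y - z) * cis (o * s0)) ζ - 1) ∧ a1 + b2 - w ≠ z ∧ dist z (a1 + b2 - w) < 2)
    (e2 : 0 < (dist (z + (y - z) * cis (o * s0)) (a2 + b1 - w) - 1) *
      (dist (z + (y - z) * cis (o * s0)) ζ - 1) ∧ a2 + b1 - w ≠ z ∧ dist z (a2 + b1 - w) < 2) :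
    False := by
  have hdd := sgn2 hb1 hb2 hb hop hpp
  have q1 := sgn1 hb1 hb2 h1y
  have q2 := sgn1 hb2 hb1 h2y
  have hneg : dtr (a2 - y) (b1 - b2) = -dtr (a2 - y) (b2 - b1) := by
    unfold dtr; simp; ring
  rw [hneg] at q2
  have f1 : ¬ (dist y (a1 + b2 - w) - 1) * (dist (z + (y - z) * cis (o * s0)) ζ - 1) < 0 :=
    fun h => side F hz hM1 hyz hs0 harc e1.2.1 e1.2.2 e1.1 h
  have f2 : ¬ (dist y (a2 + b1 - w) - 1) * (dist (z + (y - z) * cis (o * s0)) ζ - 1) < 0 :=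
    fun h => side F hz hM2 hyz hs0 harc e2.2.1 e2.2.2 e2.1 h
  rcases mul_pos_iff.1 hdd with ⟨g1, g2⟩ | ⟨g1, g2⟩
  · rcases lt_or_gt_of_ne hoff with h1 | h1
    · exact f1 (mul_neg_of_pos_of_neg (sgp q1 g1) h1)
    · exact f2 (mul_neg_of_neg_of_pos (sgm q2 (neg_lt_zero.2 g2)) h1)
  · rcases lt_or_gt_of_ne hoff with h1 | h1
    · exact f2 (mul_neg_of_pos_of_neg (sgp q2 (neg_pos.2 g2)) h1)
    · exact f1 (mul_neg_of_neg_of_pos (sgm q1 g1) h1)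

/-- the common points near `v` and `q` of the unit circles about `w` and a point near `z` -/
theorem exists_fg (F : F6 U T) (N : Nd T X z v q) {w w1 y : ℂ} (hwd : w = v + q - z)
    (hw : T w = univ) (hyz : dist y z = 1) (hyv : y ≠ v) (hyv2 : y + v ≠ 2 * z)
    (hw1d : w1 = y + q - z) (hw1z : w1 ≠ z) :
    ∃ f g : ℂ → ℂ, ∃ ρ > 0, ρ ≤ 1 ∧ (∀ ζ, ζ ≠ w → ContinuousAt f ζ) ∧
      (∀ ζ, ζ ≠ w → ContinuousAt g ζ) ∧ (∀ ζ, f ζ + g ζ = w + ζ) ∧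
      (∀ ζ, dist ζ z < ρ → T ζ = univ → ζ ≠ w ∧ dist (f ζ) w = 1 ∧ dist (f ζ) ζ = 1 ∧
        dist (g ζ) w = 1 ∧ dist (g ζ) ζ = 1 ∧ T (f ζ) = X ∧ T (g ζ) = Xᶜ) ∧
      (∀ ζ1 ζ2, dist ζ1 z < ρ → dist ζ2 z < ρ →
        0 < cr (g ζ1 + g ζ2 - 2 * w) (f ζ1 - y) * cr (g ζ1 + g ζ2 - 2 * w) (f ζ2 - y)) ∧
      ∀ ζ, dist ζ z < ρ → ρ < dist (y + g ζ - ζ) z := by
  have No : Nd T X w v q := by rw [hwd]; exact N.other
  have hsum : w + z = v + q := by rw [hwd]; ring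
  have hwz : w ≠ z := by rw [hwd]; exact N.ne_other
  have hopv : w + z ≠ 2 * v := fun h1 => N.ne (by linear_combination hsum - h1)
  have hopq : w + z ≠ 2 * q := fun h1 => N.ne (by linear_combination h1 - hsum)
  -- the common points near `v` and `q`
  obtain ⟨κ, hκ, hfz, hpos⟩ := cmn_exists (w := w) (z := z) (v := v)
    (by rw [dist_comm]; exact No.dv) (by rw [dist_comm]; exact N.dv) hwz.symm
    (by rw [add_comm]; exact hopv)
  obtain ⟨f, hf⟩ : ∃ f : ℂ → ℂ, f = cmn κ w := ⟨_, rfl⟩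
  obtain ⟨g, hg⟩ : ∃ g : ℂ → ℂ, g = fun ζ => w + ζ - f ζ := ⟨_, rfl⟩
  have hfc : ∀ ζ, ζ ≠ w → ContinuousAt f ζ := fun ζ h1 => by rw [hf]; exact cmn_cont h1
  have hgc : ∀ ζ, ζ ≠ w → ContinuousAt g ζ := fun ζ h1 => by
    rw [hg]; exact (continuousAt_const.add continuousAt_id).sub (hfc ζ h1)
  have hfz' : f z = v := by rw [hf]; exact hfz
  have hgz' : g z = q := by
    have : g z = w + z - f z := by rw [hg]
    rw [this, hfz', hsum]; ring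
  have hfg : ∀ ζ, f ζ + g ζ = w + ζ := fun ζ => by rw [hg]; ring
  have fcz := (hfc z hwz.symm).tendsto
  have gcz := (hgc z hwz.symm).tendsto
  rw [hfz'] at fcz
  rw [hgz'] at gcz
  -- good points
  have G : ∀ᶠ ζ in 𝓝 z, ζ ≠ w ∧ 0 < 1 / ‖ζ - w‖ ^ 2 - 1 / 4 ∧ T (f ζ) ⊆ X ∧ T (g ζ) ⊆ Xᶜ ∧
      w + ζ ≠ 2 * f ζ ∧ w + ζ ≠ 2 * g ζ ∧ dist w1 z / 2 < dist (y + g ζ - ζ) z := by
    have a1 : ∀ᶠ ζ in 𝓝 z, ζ ≠ w := isOpen_ne.mem_nhds hwz.symm
    have a2 : ∀ᶠ ζ in 𝓝 z, 0 < 1 / ‖ζ - w‖ ^ 2 - 1 / 4 := by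
      have hD : ‖z - w‖ ^ 2 ≠ 0 :=
        pow_ne_zero 2 (norm_ne_zero_iff.2 (sub_ne_zero.2 hwz.symm))
      have h1 : ContinuousAt (fun ζ : ℂ => 1 / ‖ζ - w‖ ^ 2 - 1 / 4) z :=
        (continuousAt_const.div (((continuous_id.sub continuous_const).continuousAt.norm).pow 2)
          hD).sub continuousAt_const
      exact h1.eventually (Ioi_mem_nhds hpos)
    have a3 : ∀ᶠ ζ in 𝓝 z, T (f ζ) ⊆ X := by
      have := fcz.eventually (F.irr.nhd v)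
      rwa [N.Tv] at this
    have a4 : ∀ᶠ ζ in 𝓝 z, T (g ζ) ⊆ Xᶜ := by
      have := gcz.eventually (F.irr.nhd q)
      rwa [N.Tq] at this
    have a5 : ∀ᶠ ζ in 𝓝 z, w + ζ ≠ 2 * f ζ := by
      have h1 : Tendsto (fun ζ => w + ζ - 2 * f ζ) (𝓝 z) (𝓝 (w + z - 2 * v)) :=
        (tendsto_const_nhds.add tendsto_id).sub (tendsto_const_nhds.mul fcz)
      filter_upwards [h1.eventually (isOpen_ne.mem_nhds (sub_ne_zero.2 hopv))] with ζ h2 h3
      exact h2 (sub_eq_zero.2 h3)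
    have a6 : ∀ᶠ ζ in 𝓝 z, w + ζ ≠ 2 * g ζ := by
      have h1 : Tendsto (fun ζ => w + ζ - 2 * g ζ) (𝓝 z) (𝓝 (w + z - 2 * q)) :=
        (tendsto_const_nhds.add tendsto_id).sub (tendsto_const_nhds.mul gcz)
      filter_upwards [h1.eventually (isOpen_ne.mem_nhds (sub_ne_zero.2 hopq))] with ζ h2 h3
      exact h2 (sub_eq_zero.2 h3)
    have a7 : ∀ᶠ ζ in 𝓝 z, dist w1 z / 2 < dist (y + g ζ - ζ) z := by
      have h1 : Tendsto (fun ζ => dist (y + g ζ - ζ) z) (𝓝 z) (𝓝 (dist (y + q - z) z)) :=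
        ((tendsto_const_nhds.add gcz).sub tendsto_id).dist tendsto_const_nhds
      rw [← hw1d] at h1
      exact h1.eventually (Ioi_mem_nhds (by
        have := dist_pos.2 hw1z
        linarith))
    filter_upwards [a1, a2, a3, a4, a5, a6, a7] with ζ b1 b2 b3 b4 b5 b6 b7
    exact ⟨b1, b2, b3, b4, b5, b6, b7⟩
  -- the sign
  obtain ⟨K0, hK0⟩ : ∃ K0, K0 = cr (q + q - 2 * w) (v - y) := ⟨_, rfl⟩
  have hK : K0 ≠ 0 := by
    have h1 : cr (z - v) (z - y) ≠ 0 := cr_ne N.dv (by rw [dist_comm]; exact hyz) hyv.symm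
      (fun h2 => hyv2 (by linear_combination h2))
    intro h2
    refine h1 ?_
    have h3 : cr (q + q - 2 * w) (v - y) = 2 * cr (z - v) (z - y) := by
      have e : q + q - 2 * w = 2 * (z - v) := by rw [hwd]; ring
      rw [e]
      unfold cr
      simp
      ring
    rw [hK0, h3] at h2
    linarith
  have P : ∀ᶠ x : ℂ × ℂ in 𝓝 (z, z), 0 < cr (g x.1 + g x.2 - 2 * w) (f x.1 - y) * K0 ∧
      0 < cr (g x.1 + g x.2 - 2 * w) (f x.2 - y) * K0 := by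
    have t1 : Tendsto (fun x : ℂ × ℂ => x.1) (𝓝 (z, z)) (𝓝 z) := continuous_fst.tendsto (z, z)
    have t2 : Tendsto (fun x : ℂ × ℂ => x.2) (𝓝 (z, z)) (𝓝 z) := continuous_snd.tendsto (z, z)
    have hcr : Continuous fun x : ℂ × ℂ => cr x.1 x.2 := by unfold cr; fun_prop
    have hS : Tendsto (fun x : ℂ × ℂ => g x.1 + g x.2 - 2 * w) (𝓝 (z, z)) (𝓝 (q + q - 2 * w)) :=
      ((gcz.comp t1).add (gcz.comp t2)).sub tendsto_const_nhds
    have hF1 : Tendsto (fun x : ℂ × ℂ => f x.1 - y) (𝓝 (z, z)) (𝓝 (v - y)) :=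
      (fcz.comp t1).sub tendsto_const_nhds
    have hF2 : Tendsto (fun x : ℂ × ℂ => f x.2 - y) (𝓝 (z, z)) (𝓝 (v - y)) :=
      (fcz.comp t2).sub tendsto_const_nhds
    have l1 : Tendsto (fun x : ℂ × ℂ => cr (g x.1 + g x.2 - 2 * w) (f x.1 - y) * K0) (𝓝 (z, z))
        (𝓝 (K0 * K0)) := by
      have h1 := (hcr.tendsto (q + q - 2 * w, v - y)).comp (hS.prodMk_nhds hF1)
      have h2 := h1.mul_const K0
      simpa only [Function.comp_def, ← hK0] using h2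
    have l2 : Tendsto (fun x : ℂ × ℂ => cr (g x.1 + g x.2 - 2 * w) (f x.2 - y) * K0) (𝓝 (z, z))
        (𝓝 (K0 * K0)) := by
      have h1 := (hcr.tendsto (q + q - 2 * w, v - y)).comp (hS.prodMk_nhds hF2)
      have h2 := h1.mul_const K0
      simpa only [Function.comp_def, ← hK0] using h2
    have hKK : 0 < K0 * K0 := mul_self_pos.2 hK
    exact (l1.eventually (Ioi_mem_nhds hKK)).and (l2.eventually (Ioi_mem_nhds hKK))
  obtain ⟨ρ1, hρ1, hG⟩ := Metric.eventually_nhds_iff.1 G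
  obtain ⟨ρ2, hρ2, hP⟩ := Metric.eventually_nhds_iff.1 P
  obtain ⟨ρ, hρd⟩ : ∃ ρ, ρ = min (min ρ1 ρ2) (min (dist w1 z / 2) 1) := ⟨_, rfl⟩
  have hw1p := dist_pos.2 hw1z
  have hρ : 0 < ρ := by
    rw [hρd]; exact lt_min (lt_min hρ1 hρ2) (lt_min (by linarith) one_pos)
  have hρ1' : ρ ≤ ρ1 := by rw [hρd]; exact (min_le_left _ _).trans (min_le_left _ _)
  have hρ2' : ρ ≤ ρ2 := by rw [hρd]; exact (min_le_left _ _).trans (min_le_right _ _)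
  have hρ3' : ρ ≤ dist w1 z / 2 := by rw [hρd]; exact (min_le_right _ _).trans (min_le_left _ _)
  have hρ4' : ρ ≤ 1 := by rw [hρd]; exact (min_le_right _ _).trans (min_le_right _ _)
  -- data of a good six coloured point
  have D : ∀ ζ, dist ζ z < ρ → T ζ = univ → ζ ≠ w ∧ dist (f ζ) w = 1 ∧ dist (f ζ) ζ = 1 ∧
      dist (g ζ) w = 1 ∧ dist (g ζ) ζ = 1 ∧ T (f ζ) = X ∧ T (g ζ) = Xᶜ := by
    intro ζ h1 h2
    obtain ⟨b1, b2, b3, b4, b5, b6, -⟩ := hG (h1.trans_le hρ1')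
    have hd := cmn_dist hκ b1 b2.le
    rw [← hf] at hd
    have e1 : dist (g ζ) w = 1 := by
      rw [dist_eq_norm, show g ζ - w = ζ - f ζ by linear_combination hfg ζ, ← dist_eq_norm,
        dist_comm]
      exact hd.2
    have e2 : dist (g ζ) ζ = 1 := by
      rw [dist_eq_norm, show g ζ - ζ = w - f ζ by linear_combination hfg ζ, ← dist_eq_norm,
        dist_comm]
      exact hd.1
    have c1 := three F hw h2 hd.1 hd.2 b1.symm b5
    have c2 := three F hw h2 e1 e2 b1.symm b6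
    exact ⟨b1, hd.1, hd.2, e1, e2,
      Set.eq_of_subset_of_ncard_le b3 (by rw [N.hX, c1]) (Set.toFinite _),
      Set.eq_of_subset_of_ncard_le b4 (by rw [N.hXc, c2]) (Set.toFinite _)⟩
  refine ⟨f, g, ρ, hρ, hρ4', hfc, hgc, hfg, D, fun ζ1 ζ2 h1 h2 => ?_, fun ζ h1 => ?_⟩
  · obtain ⟨p1, p2⟩ := hP (y := (ζ1, ζ2)) (by
      rw [Prod.dist_eq]; exact max_lt (h1.trans_le hρ2') (h2.trans_le hρ2'))
    simp only at p1 p2
    have h3 := mul_pos p1 p2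
    have h4 : 0 < (cr (g ζ1 + g ζ2 - 2 * w) (f ζ1 - y) *
        cr (g ζ1 + g ζ2 - 2 * w) (f ζ2 - y)) * (K0 * K0) := by
      calc (0 : ℝ) < _ := h3
        _ = _ := by ring
    exact pos_of_mul_pos_left h4 (mul_self_nonneg _)
  · exact hρ3'.trans_lt (hG (h1.trans_le hρ1')).2.2.2.2.2.2

/-- **The complement rule.** -/
theorem kill (F : F6 U T) (N : Nd T X z v q) (hz : T z = univ) : False := by
  obtain ⟨w, hwd⟩ : ∃ w, w = v + q - z := ⟨_, rfl⟩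
  have hw : T w = univ := by rw [hwd]; exact six F N hz
  have No : Nd T X w v q := by rw [hwd]; exact N.other
  have hsum : w + z = v + q := by rw [hwd]; ring
  have hwz : w ≠ z := by rw [hwd]; exact N.ne_other
  have hopv : w + z ≠ 2 * v := fun h1 => N.ne (by linear_combination hsum - h1)
  have hopq : w + z ≠ 2 * q := fun h1 => N.ne (by linear_combination h1 - hsum)
  -- the end `y` of an exact arc
  have hTv : (T v).ncard = 3 := by rw [N.Tv, N.hX]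
  have hTq : (T q).ncard = 3 := by rw [N.Tq, N.hXc]
  obtain ⟨y, hyV, hyv, hyz, hyT, o, ho, η, hη, harc⟩ := near F hTv hz hw
    (by rw [dist_comm]; exact N.dv) (by rw [dist_comm]; exact No.dv) hwz hopv
    (V := {y | y + q ≠ 2 * z ∧ y + v ≠ 2 * z}) (by
      have o1 : IsOpen {y : ℂ | y + q ≠ 2 * z ∧ y + v ≠ 2 * z} :=
        (isOpen_ne_fun (by fun_prop) (by fun_prop)).inter
          (isOpen_ne_fun (by fun_prop) (by fun_prop))
      refine o1.mem_nhds ⟨N.op, fun h1 => ?_⟩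
      have h2 : v = z := by linear_combination h1 / 2
      have h3 := N.dv
      rw [h2, dist_self] at h3
      norm_num at h3)
  obtain ⟨hyq, hyv2⟩ := hyV
  rw [N.Tv] at hyT
  have N1 : Nd T X z y q := ⟨N.hX, by rw [dist_comm]; exact hyz, N.dq, hyT, N.Tq, hyq⟩
  obtain ⟨w1, hw1d⟩ : ∃ w1, w1 = y + q - z := ⟨_, rfl⟩
  have hw1 : T w1 = univ := by rw [hw1d]; exact six F N1 hz
  have N1o : Nd T X w1 y q := by rw [hw1d]; exact N1.other
  have hw1z : w1 ≠ z := by rw [hw1d]; exact N1.ne_other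
  have hsum1 : w1 + z = y + q := by rw [hw1d]; ring
  obtain ⟨f, g, ρ, hρ, hρ4', hfc, hgc, hfg, D, hK, hfar⟩ := exists_fg F N hwd hw hyz hyv hyv2 hw1d hw1z
  -- the first point
  obtain ⟨q2, hq2V, hq2ne, hq2w, hq2T, -⟩ := near F hTq hw1 hz
    (by rw [dist_comm]; exact N1o.dq) (by rw [dist_comm]; exact N.dq) hw1z.symm
    (fun h1 => N1.ne (by linear_combination h1 - hsum1))
    (V := {x | dist x q < ρ} ∩ {x | y + x ≠ 2 * w1}) (by
      have o1 : IsOpen ({x : ℂ | dist x q < ρ} ∩ {x : ℂ | y + x ≠ 2 * w1}) :=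
        (isOpen_lt (by fun_prop) (by fun_prop)).inter
          (isOpen_ne_fun (by fun_prop) (by fun_prop))
      exact o1.mem_nhds ⟨by rw [mem_setOf_eq, dist_self]; exact hρ, N1o.op⟩)
  obtain ⟨hq2ρ, hq2op⟩ := hq2V
  rw [N.Tq] at hq2T
  have N2 : Nd T X w1 y q2 :=
    ⟨N.hX, N1o.dv, by rw [dist_comm]; exact hq2w, hyT, hq2T, hq2op⟩
  obtain ⟨ζ1, hζ1d⟩ : ∃ ζ1, ζ1 = y + q2 - w1 := ⟨_, rfl⟩
  have hζ1 : T ζ1 = univ := by rw [hζ1d]; exact six F N2 hw1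
  have hζ1q : ζ1 - z = q2 - q := by rw [hζ1d, hw1d]; ring
  have hζ1ρ : dist ζ1 z < ρ := by rw [dist_eq_norm, hζ1q, ← dist_eq_norm]; exact hq2ρ
  have hζ1z : ζ1 ≠ z := fun h1 => hq2ne (by
    rw [h1, sub_self] at hζ1q
    linear_combination -hζ1q)
  have hζ1y : dist ζ1 y = 1 := by
    rw [dist_eq_norm, show ζ1 - y = q2 - w1 by rw [hζ1d]; ring, ← dist_eq_norm]; exact hq2w
  have hζ1q2 : dist ζ1 q2 = 1 := by
    rw [dist_eq_norm, show ζ1 - q2 = y - w1 by rw [hζ1d]; ring, ← dist_eq_norm, dist_comm]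
    exact N1o.dv
  have hζ1w1 : ζ1 ≠ w1 := by rw [hζ1d]; exact N2.ne_other
  obtain ⟨d1, d2, d3, d4, d5, d6, d7⟩ := D ζ1 hζ1ρ hζ1
  -- a point of the arc off the circle about `ζ1`
  obtain ⟨s0, hs0, hoff⟩ := exists_off hyz (by rw [dist_comm]; exact hζ1y) hζ1z.symm ho hη
  have hoff' := sub_ne_zero.2 hoff
  have Q : ∀ᶠ c in 𝓝 ζ1, 0 < (dist (z + (y - z) * cis (o * s0)) c - 1) * (dist (z + (y - z) * cis (o * s0)) ζ1 - 1) ∧ c ≠ z ∧ dist z c < 2 := by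
    have a1 : ∀ᶠ c in 𝓝 ζ1, 0 < (dist (z + (y - z) * cis (o * s0)) c - 1) * (dist (z + (y - z) * cis (o * s0)) ζ1 - 1) := by
      have h1 : Tendsto (fun c => (dist (z + (y - z) * cis (o * s0)) c - 1) * (dist (z + (y - z) * cis (o * s0)) ζ1 - 1)) (𝓝 ζ1)
          (𝓝 ((dist (z + (y - z) * cis (o * s0)) ζ1 - 1) * (dist (z + (y - z) * cis (o * s0)) ζ1 - 1))) :=
        ((tendsto_const_nhds.dist tendsto_id).sub tendsto_const_nhds).mul tendsto_const_nhds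
      exact h1.eventually (Ioi_mem_nhds (mul_self_pos.2 hoff'))
    have a2 : ∀ᶠ c in 𝓝 ζ1, c ≠ z := isOpen_ne.mem_nhds hζ1z
    have a3 : ∀ᶠ c in 𝓝 ζ1, dist z c < 2 := by
      have h1 : Tendsto (fun c => dist z c) (𝓝 ζ1) (𝓝 (dist z ζ1)) :=
        tendsto_const_nhds.dist tendsto_id
      exact h1.eventually (Iio_mem_nhds (by rw [dist_comm]; linarith))
    filter_upwards [a1, a2, a3] with c b1 b2 b3
    exact ⟨b1, b2, b3⟩
  have fc1 := (hfc ζ1 d1).tendsto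
  have gc1 := (hgc ζ1 d1).tendsto
  have E : ∀ᶠ ζ in 𝓝 ζ1, dist ζ z < ρ ∧ f ζ1 + g ζ ≠ 2 * w ∧ f ζ + g ζ1 ≠ 2 * w ∧
      (0 < (dist (z + (y - z) * cis (o * s0)) (f ζ1 + g ζ - w) - 1) * (dist (z + (y - z) * cis (o * s0)) ζ1 - 1) ∧ f ζ1 + g ζ - w ≠ z ∧
        dist z (f ζ1 + g ζ - w) < 2) ∧
      (0 < (dist (z + (y - z) * cis (o * s0)) (f ζ + g ζ1 - w) - 1) * (dist (z + (y - z) * cis (o * s0)) ζ1 - 1) ∧ f ζ + g ζ1 - w ≠ z ∧
        dist z (f ζ + g ζ1 - w) < 2) := by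
    have t1 : Tendsto (fun ζ => f ζ1 + g ζ - w) (𝓝 ζ1) (𝓝 ζ1) := by
      have h1 : Tendsto (fun ζ => f ζ1 + g ζ - w) (𝓝 ζ1) (𝓝 (f ζ1 + g ζ1 - w)) :=
        (tendsto_const_nhds.add gc1).sub tendsto_const_nhds
      rwa [show f ζ1 + g ζ1 - w = ζ1 by linear_combination hfg ζ1] at h1
    have t2 : Tendsto (fun ζ => f ζ + g ζ1 - w) (𝓝 ζ1) (𝓝 ζ1) := by
      have h1 : Tendsto (fun ζ => f ζ + g ζ1 - w) (𝓝 ζ1) (𝓝 (f ζ1 + g ζ1 - w)) :=
        (fc1.add tendsto_const_nhds).sub tendsto_const_nhds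
      rwa [show f ζ1 + g ζ1 - w = ζ1 by linear_combination hfg ζ1] at h1
    have a1 : ∀ᶠ ζ in 𝓝 ζ1, dist ζ z < ρ := by
      have o1 : IsOpen {x : ℂ | dist x z < ρ} := isOpen_lt (by fun_prop) (by fun_prop)
      exact o1.mem_nhds hζ1ρ
    have a2 : ∀ᶠ ζ in 𝓝 ζ1, f ζ1 + g ζ - w ≠ w := t1.eventually (isOpen_ne.mem_nhds d1)
    have a3 : ∀ᶠ ζ in 𝓝 ζ1, f ζ + g ζ1 - w ≠ w := t2.eventually (isOpen_ne.mem_nhds d1)
    filter_upwards [a1, a2, a3, t1.eventually Q, t2.eventually Q] with ζ b1 b2 b3 b4 b5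
    exact ⟨b1, fun h1 => b2 (by linear_combination h1), fun h1 => b3 (by linear_combination h1),
      b4, b5⟩
  -- the second point
  have hcont : Tendsto (fun x : ℂ => y + x - w1) (𝓝 q2) (𝓝 ζ1) := by
    have : Continuous fun x : ℂ => y + x - w1 := by fun_prop
    have h1 := this.tendsto q2
    rwa [← hζ1d] at h1
  have hop2 : {x : ℂ | y + x ≠ 2 * w1} ∈ 𝓝 q2 :=
    (isOpen_ne_fun (by fun_prop) (by fun_prop)).mem_nhds hq2op
  obtain ⟨q3, hq3V, hq3ne, hq3w, hq3T, -⟩ := near F (by rw [hq2T, N.hXc]) hw1 hζ1 hq2w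
    (by rw [dist_comm]; exact hζ1q2) hζ1w1
    (fun h1 => N2.ne (by
      have h2 : ζ1 + w1 = y + q2 := by rw [hζ1d]; ring
      linear_combination h1 - h2))
    (V := {x | y + x ≠ 2 * w1} ∩ (fun x : ℂ => y + x - w1) ⁻¹' {ζ | dist ζ z < ρ ∧
      f ζ1 + g ζ ≠ 2 * w ∧ f ζ + g ζ1 ≠ 2 * w ∧
      (0 < (dist (z + (y - z) * cis (o * s0)) (f ζ1 + g ζ - w) - 1) * (dist (z + (y - z) * cis (o * s0)) ζ1 - 1) ∧ f ζ1 + g ζ - w ≠ z ∧
        dist z (f ζ1 + g ζ - w) < 2) ∧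
      (0 < (dist (z + (y - z) * cis (o * s0)) (f ζ + g ζ1 - w) - 1) * (dist (z + (y - z) * cis (o * s0)) ζ1 - 1) ∧ f ζ + g ζ1 - w ≠ z ∧
        dist z (f ζ + g ζ1 - w) < 2)}) (Filter.inter_mem hop2 (hcont.eventually E))
  rw [hq2T] at hq3T
  obtain ⟨hq3op, hq3E⟩ := hq3V
  obtain ⟨ζ2, hζ2d⟩ : ∃ ζ2, ζ2 = y + q3 - w1 := ⟨_, rfl⟩
  have hq3E : dist ζ2 z < ρ ∧ f ζ1 + g ζ2 ≠ 2 * w ∧ f ζ2 + g ζ1 ≠ 2 * w ∧
      (0 < (dist (z + (y - z) * cis (o * s0)) (f ζ1 + g ζ2 - w) - 1) * (dist (z + (y - z) * cis (o * s0)) ζ1 - 1) ∧ f ζ1 + g ζ2 - w ≠ z ∧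
        dist z (f ζ1 + g ζ2 - w) < 2) ∧
      (0 < (dist (z + (y - z) * cis (o * s0)) (f ζ2 + g ζ1 - w) - 1) * (dist (z + (y - z) * cis (o * s0)) ζ1 - 1) ∧ f ζ2 + g ζ1 - w ≠ z ∧
        dist z (f ζ2 + g ζ1 - w) < 2) := by rw [hζ2d]; exact hq3E
  have N3 : Nd T X w1 y q3 :=
    ⟨N.hX, N1o.dv, by rw [dist_comm]; exact hq3w, hyT, hq3T, hq3op⟩
  have hζ2 : T ζ2 = univ := by rw [hζ2d]; exact six F N3 hw1
  obtain ⟨hζ2ρ, e1, e2, ⟨e3, e4, e5⟩, e6, e7, e8⟩ := hq3E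
  have hζ2y : dist ζ2 y = 1 := by
    rw [dist_eq_norm, show ζ2 - y = q3 - w1 by rw [hζ2d]; ring, ← dist_eq_norm]; exact hq3w
  have hζ12 : ζ1 ≠ ζ2 := fun h1 => hq3ne (by
    rw [hζ1d, hζ2d] at h1
    linear_combination -h1)
  obtain ⟨c1, c2, c3, c4, c5, c6, c7⟩ := D ζ2 hζ2ρ hζ2
  -- the two corners
  have M1 : Nd T X w (f ζ1) (g ζ2) :=
    ⟨N.hX, by rw [dist_comm]; exact d2, by rw [dist_comm]; exact c4, d6, c7, e1⟩
  have M2 : Nd T X w (f ζ2) (g ζ1) :=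
    ⟨N.hX, by rw [dist_comm]; exact c2, by rw [dist_comm]; exact d4, c6, d7, e2⟩
  have hM1 := six F M1 hw
  have hM2 := six F M2 hw
  -- `g ζ1 ≠ g ζ2`
  have hgne : g ζ1 ≠ g ζ2 := by
    intro h1
    have hyg : y ≠ g ζ1 := fun h2 => by
      have h3 : X = Xᶜ := hyT.symm.trans (by rw [h2]; exact d7)
      obtain ⟨i, hi⟩ : X.Nonempty := Set.nonempty_of_ncard_ne_zero (by rw [N.hX]; norm_num)
      have h4 : i ∈ Xᶜ := h3 ▸ hi
      exact h4 hi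
    have hx1 : dist (y + g ζ1 - ζ1) y = 1 := by
      rw [dist_eq_norm, show y + g ζ1 - ζ1 - y = g ζ1 - ζ1 by ring, ← dist_eq_norm]; exact d5
    have hx2 : dist (y + g ζ1 - ζ1) (g ζ1) = 1 := by
      rw [dist_eq_norm, show y + g ζ1 - ζ1 - g ζ1 = -(ζ1 - y) by ring, norm_neg, ← dist_eq_norm]
      exact hζ1y
    have hfar := hfar ζ1 hζ1ρ
    rcases circle_two (z := y) (w := g ζ1) (V := ζ1) (Q := ζ2) (x := y + g ζ1 - ζ1) hζ1y hζ2y hx1
      (by rw [dist_comm]; exact d5) (by rw [dist_comm, h1]; exact c5) hx2 hyg hζ12 with h2 | h2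
    · rw [h2] at hfar
      exact absurd hfar (not_lt.2 hζ1ρ.le)
    · rw [h2] at hfar
      exact absurd hfar (not_lt.2 hζ2ρ.le)
  have hpp := hK ζ1 ζ2 hζ1ρ hζ2ρ
  have hab : g ζ1 + g ζ2 ≠ 2 * w := by
    intro h1
    rw [h1, sub_self] at hpp
    simp [cr] at hpp
  refine corners F hz hyz hs0 harc hoff' d4 c4 hgne hab hpp ?_ ?_ hM1 hM2 ⟨e3, e4, e5⟩
    ⟨e6, e7, e8⟩
  · rw [show f ζ1 + g ζ1 - w = ζ1 by linear_combination hfg ζ1]; exact hζ1y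
  · rw [show f ζ2 + g ζ2 - w = ζ2 by linear_combination hfg ζ2]; exact hζ2y

end Vale.Agent.P032.S5.H913

namespace Vale.Agent.P032.Six

open Vale.Agent.P032.S5.H913 Vale.Agent.P032.S5.H450

/-- **The complement rule (R-STRONG).** -/
theorem Irr.compl6_913 {U : Fin 6 → Set ℂ} {T : ℂ → Set (Fin 6)} (h : Irr U T)
    (hmin : ∀ z, 4 ≤ (T z).ncard → ∀ s, s ⊆ T z → s ≠ T z →
      ¬ ∀ᶠ w in 𝓝 z, ∃ i ∈ s, w ∈ U i ∨ (w ∈ XX U ∧ i ∈ Pal U w))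
    (hcl : ∀ z y, 5 ≤ (T z).ncard → dist y z = 1 → (T y).ncard ≤ 3)
    (hnoD : ∀ z a b c d, ¬ DPt T z a b c d) {z v q : ℂ} (h6 : (T z).ncard = 6)
    (hv : dist v z = 1) (hq : dist q z = 1) (h3 : (T v).ncard = 3) (hc : T q = (T v)ᶜ) :
    v + q = 2 * z := by
  by_contra hcon
  have hz : T z = univ := by
    refine Set.eq_of_subset_of_ncard_le (subset_univ _) ?_ (Set.toFinite _)
    rw [h6, Set.ncard_univ, Nat.card_eq_fintype_card, Fintype.card_fin]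
  exact kill ⟨h, hmin, hcl, hnoD⟩
    (⟨h3, by rw [dist_comm]; exact hv, by rw [dist_comm]; exact hq, rfl, hc, hcon⟩ :
      Nd T (T v) z v q) hz

end Vale.Agent.P032.Six
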