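import Vale.Agent.P032.S5.H450.Node
import Vale.Agent.P032.S5.H555.Penta
import Vale.Agent.P032.S5.H80.Clean

/-!
# P032: the complement rule at six coloured points, part 1

Frame: no `D`-points, unit circles of points with at least five colours are clean.
-/

open Set Filter Topology Metric

noncomputable section

namespace Vale.Agent.P032.S5.H913

open Vale.Agent.P032.Six Vale.Agent.P032.S5.H450

variable {U : Fin 6 → Set ℂ} {T : ℂ → Set (Fin 6)} {X : Set (Fin 6)} {z v q : ℂ}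

/-- the frame -/
structure F6 (U : Fin 6 → Set ℂ) (T : ℂ → Set (Fin 6)) : Prop where
  irr : Irr U T
  min : ∀ z, 4 ≤ (T z).ncard → ∀ s, s ⊆ T z → s ≠ T z →
      ¬ ∀ᶠ w in 𝓝 z, ∃ i ∈ s, w ∈ U i ∨ (w ∈ XX U ∧ i ∈ Pal U w)
  cl : ∀ z y, 5 ≤ (T z).ncard → dist y z = 1 → (T y).ncard ≤ 3
  noD : ∀ z a b c d, ¬ DPt T z a b c d

theorem not_stay (h : Irr U T) {c c' v : ℂ} (hc : dist c v = 1) (hc' : dist c' v = 1)
    (hne : c' ≠ c) (hop : c' + c ≠ 2 * v) {t : Fin 6} (ht : t ∈ T c') : ¬ Stay T c v t := by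
  intro hs
  rcases hs.line h hc hc' ht with h1 | h1
  · exact hne h1
  · exact hop h1

theorem pair_near (h : Irr U T) {c v : ℂ} (hTv : T v = X) {t : Fin 6} (hns : ¬ Stay T c v t)
    (hsub : X \ {t} ⊆ T c) (h2 : (X \ {t}).ncard = 2) {V : Set ℂ} (hV : V ∈ 𝓝 v) :
    ∃ y ∈ V, dist y c = 1 ∧ T y = X \ {t} := by
  have h1 : ∃ᶠ y in 𝓝[sphere c 1] v, t ∉ T y := by
    intro hcon
    refine hns (hcon.mono fun y hy => ?_)
    simpa using hy
  have h3 : ∀ᶠ y in 𝓝[sphere c 1] v, (y ∈ V ∧ T y ⊆ T v) ∧ y ∈ sphere c 1 := by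
    filter_upwards [mem_nhdsWithin_of_mem_nhds hV, mem_nhdsWithin_of_mem_nhds (h.nhd v),
      self_mem_nhdsWithin] with y a1 a2 a3
    exact ⟨⟨a1, a2⟩, a3⟩
  obtain ⟨y, hy1, ⟨hyV, hyv⟩, hyc⟩ := (h1.and_eventually h3).exists
  have hsubP : T y ⊆ X \ {t} := by
    intro i hi
    refine ⟨hTv ▸ hyv hi, ?_⟩
    rintro rfl
    exact hy1 hi
  exact ⟨y, hyV, hyc, (h.pair_open h2 hsub hsubP).self_of_nhdsWithin hyc⟩

theorem fin5_tri : ∀ n0 n1 n2 : Fin 5, n0 ≠ n1 → n1 ≠ n2 → n0 ≠ n2 →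
    (n0 = n1 + 2 ∨ n1 = n0 + 2) → (n1 = n2 + 2 ∨ n2 = n1 + 2) → (n0 = n2 + 2 ∨ n2 = n0 + 2) →
    False := by decide

/-- the pair `{c i, c (i + 2)}` -/
theorem pair_c {c : Fin 5 → Fin 6} (hc : Function.Injective c) {m n i : Fin 5}
    (hmn : m ≠ n) (h : ({c m, c n} : Set (Fin 6)) = {c i, c (i + 2)}) : m = n + 2 ∨ n = m + 2 := by
  have h1 : c m ∈ ({c i, c (i + 2)} : Set (Fin 6)) := h ▸ (by simp)
  have h2 : c n ∈ ({c i, c (i + 2)} : Set (Fin 6)) := h ▸ (by simp)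
  simp only [mem_insert_iff, mem_singleton_iff] at h1 h2
  rcases h1 with h1 | h1 <;> rcases h2 with h2 | h2
  · exact absurd ((hc h1).trans (hc h2).symm) hmn
  · right; rw [hc h1]; exact hc h2
  · left; rw [hc h2]; exact hc h1
  · exact absurd ((hc h1).trans (hc h2).symm) hmn

/-- **(A)**, the heavy case -/
theorem heavy (F : F6 U T) (N : Nd T X z v q) (hz : T z = univ) (hX : X ⊆ T (v + q - z)) :
    T (v + q - z) = univ := by
  by_contra hcon
  have N' := N.other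
  obtain ⟨w, hw⟩ : ∃ w, w = v + q - z := ⟨_, rfl⟩
  rw [← hw] at hcon hX N'
  obtain ⟨r, hr⟩ : ∃ r, r ∉ T w := by
    by_contra h1
    push Not at h1
    exact hcon (eq_univ_of_forall h1)
  have hrX : r ∈ Xᶜ := fun h1 => hr (hX h1)
  have hTw : T w = {r}ᶜ := by
    ext i
    simp only [mem_compl_iff, mem_singleton_iff]
    constructor
    · rintro hi rfl
      exact hr hi
    · intro hi
      by_cases h1 : i ∈ X
      · exact hX h1
      · exact N'.swap.rest F.irr hrX hr ⟨h1, hi⟩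
  have h5 : (T w).ncard = 5 := by
    rw [hTw]
    have := Set.ncard_add_ncard_compl ({r} : Set (Fin 6))
    rw [Nat.card_eq_fintype_card, Fintype.card_fin, Set.ncard_singleton] at this
    omega
  obtain ⟨c, hc, hcr, hcp⟩ := F.irr.penta F.min h5 fun y hy => F.cl w y h5.ge hy
  obtain ⟨x0, x1, x2, h01, h02, h12, hXe⟩ := Set.ncard_eq_three.1 N.hX
  have hzw : z ≠ w := by rw [hw]; exact N.ne_other.symm
  have hop : z + w ≠ 2 * v := by
    rw [hw]; intro h1; exact N.off_other (by linear_combination h1)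
  have key : ∀ t ∈ X, ∃ i, X \ {t} = {c i, c (i + 2)} := by
    intro t ht
    have hns : ¬ Stay T w v t := not_stay F.irr N'.dv N.dv hzw hop (by rw [hz]; trivial)
    obtain ⟨y, -, hy1, hy2⟩ := pair_near F.irr N.Tv hns (sdiff_subset.trans hX) (N.two_sdiff ht)
      univ_mem
    obtain ⟨i, hi⟩ := hcp y hy1 (by rw [hy2]; exact N.two_sdiff ht)
      (by rw [hy2]; exact sdiff_subset.trans hX)
    exact ⟨i, hy2 ▸ hi⟩
  have mem : ∀ x ∈ X, ∃ n, x = c n := by
    intro x hx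
    have : x ∈ range c := hcr ▸ hX hx
    obtain ⟨n, hn⟩ := this
    exact ⟨n, hn.symm⟩
  obtain ⟨n0, hn0⟩ := mem x0 (by rw [hXe]; simp)
  obtain ⟨n1, hn1⟩ := mem x1 (by rw [hXe]; simp)
  obtain ⟨n2, hn2⟩ := mem x2 (by rw [hXe]; simp)
  have m01 : n0 ≠ n1 := by rintro rfl; exact h01 (hn0.trans hn1.symm)
  have m02 : n0 ≠ n2 := by rintro rfl; exact h02 (hn0.trans hn2.symm)
  have m12 : n1 ≠ n2 := by rintro rfl; exact h12 (hn1.trans hn2.symm)
  have e0 : X \ {x0} = {x1, x2} := by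
    rw [hXe]; ext i
    simp only [Set.mem_sdiff, mem_insert_iff, mem_singleton_iff]
    constructor
    · rintro ⟨h1 | h1 | h1, h2⟩
      · exact absurd h1 h2
      · exact Or.inl h1
      · exact Or.inr h1
    · rintro (rfl | rfl)
      · exact ⟨Or.inr (Or.inl rfl), h01.symm⟩
      · exact ⟨Or.inr (Or.inr rfl), h02.symm⟩
  have e1 : X \ {x1} = {x0, x2} := by
    rw [hXe]; ext i
    simp only [Set.mem_sdiff, mem_insert_iff, mem_singleton_iff]
    constructor
    · rintro ⟨h1 | h1 | h1, h2⟩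
      · exact Or.inl h1
      · exact absurd h1 h2
      · exact Or.inr h1
    · rintro (rfl | rfl)
      · exact ⟨Or.inl rfl, h01⟩
      · exact ⟨Or.inr (Or.inr rfl), h12.symm⟩
  have e2 : X \ {x2} = {x0, x1} := by
    rw [hXe]; ext i
    simp only [Set.mem_sdiff, mem_insert_iff, mem_singleton_iff]
    constructor
    · rintro ⟨h1 | h1 | h1, h2⟩
      · exact Or.inl h1
      · exact Or.inr h1
      · exact absurd h1 h2
    · rintro (rfl | rfl)
      · exact ⟨Or.inl rfl, h02⟩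
      · exact ⟨Or.inr (Or.inl rfl), h12⟩
  obtain ⟨i0, hi0⟩ := key x0 (by rw [hXe]; simp)
  obtain ⟨i1, hi1⟩ := key x1 (by rw [hXe]; simp)
  obtain ⟨i2, hi2⟩ := key x2 (by rw [hXe]; simp)
  rw [e0, hn1, hn2] at hi0
  rw [e1, hn0, hn2] at hi1
  rw [e2, hn0, hn1] at hi2
  exact fin5_tri n0 n1 n2 m01 m12 m02 (pair_c hc m01 hi2) (pair_c hc m12 hi0) (pair_c hc m02 hi1)

/-- **(A)** -/
theorem six (F : F6 U T) (N : Nd T X z v q) (hz : T z = univ) : T (v + q - z) = univ := by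
  by_cases h1 : X ⊆ T (v + q - z)
  · exact heavy F N hz h1
  by_cases h2 : Xᶜ ⊆ T (v + q - z)
  · have := heavy F N.swap hz (by rw [add_comm]; exact h2)
    rwa [add_comm] at this
  exfalso
  obtain ⟨r, hrX, hr⟩ := not_subset.1 h1
  obtain ⟨r', hrX', hr'⟩ := not_subset.1 h2
  have N' := N.other
  have hzw : z ≠ v + q - z := N.ne_other.symm
  have hopv : z + (v + q - z) ≠ 2 * v := by
    intro h1; exact N.off_other (by linear_combination h1)
  have hopq : z + (v + q - z) ≠ 2 * q := by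
    intro h1; exact N.ne (by linear_combination h1)
  have hP := N'.rest F.irr hrX hr
  have hP' := N'.swap.rest F.irr hrX' hr'
  obtain ⟨y, -, hy1, hy2⟩ := pair_near F.irr N.Tv
    (not_stay F.irr N'.dv N.dv hzw hopv (by rw [hz]; trivial) : ¬ Stay T _ v r) hP
    (N.two_sdiff hrX) univ_mem
  obtain ⟨y', -, hy1', hy2'⟩ := pair_near F.irr N.Tq
    (not_stay F.irr N'.dq N.dq hzw hopq (by rw [hz]; trivial) : ¬ Stay T _ q r') hP'
    (N.swap.two_sdiff hrX') univ_mem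
  obtain ⟨a, b, hab, hPe⟩ := Set.ncard_eq_two.1 (N.two_sdiff hrX)
  obtain ⟨c, d, hcd, hPe'⟩ := Set.ncard_eq_two.1 (N.swap.two_sdiff hrX')
  have ha : a ∈ X := (hPe ▸ (show a ∈ ({a, b} : Set (Fin 6)) by simp) : a ∈ X \ {r}).1
  have hb : b ∈ X := (hPe ▸ (show b ∈ ({a, b} : Set (Fin 6)) by simp) : b ∈ X \ {r}).1
  have hc : c ∈ Xᶜ := (hPe' ▸ (show c ∈ ({c, d} : Set (Fin 6)) by simp) : c ∈ Xᶜ \ {r'}).1
  have hd : d ∈ Xᶜ := (hPe' ▸ (show d ∈ ({c, d} : Set (Fin 6)) by simp) : d ∈ Xᶜ \ {r'}).1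
  have hne : ∀ {s t : Fin 6}, s ∈ X → t ∈ Xᶜ → s ≠ t := by
    rintro s t hs ht rfl
    exact ht hs
  refine F.noD (v + q - z) a b c d ⟨?_, hne ha hc, hne ha hd, hne hb hc, hne hb hd, hab, hcd,
    ⟨y, hy1, ?_⟩, ⟨y', hy1', ?_⟩⟩
  · ext i
    simp only [mem_insert_iff, mem_singleton_iff]
    constructor
    · intro hi
      by_cases hiX : i ∈ X
      · have : i ∈ X \ {r} := ⟨hiX, by rintro rfl; exact hr hi⟩
        rw [hPe] at this
        rcases this with h | h
        · exact Or.inl h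
        · exact Or.inr (Or.inl h)
      · have : i ∈ Xᶜ \ {r'} := ⟨hiX, by rintro rfl; exact hr' hi⟩
        rw [hPe'] at this
        rcases this with h | h
        · exact Or.inr (Or.inr (Or.inl h))
        · exact Or.inr (Or.inr (Or.inr h))
    · rintro (rfl | rfl | rfl | rfl)
      · exact hP (hPe ▸ by simp)
      · exact hP (hPe ▸ by simp)
      · exact hP' (hPe' ▸ by simp)
      · exact hP' (hPe' ▸ by simp)
  · rw [← hPe]
    exact F.irr.pair_open (N.two_sdiff hrX) hP hy2.subset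
  · rw [← hPe']
    exact F.irr.pair_open (N.swap.two_sdiff hrX') hP' hy2'.subset

/-- **(B)** a common point of two six coloured points has three colours -/
theorem three (F : F6 U T) {z1 z2 m : ℂ} (h1 : T z1 = univ) (h2 : T z2 = univ)
    (hm1 : dist m z1 = 1) (hm2 : dist m z2 = 1) (hne : z1 ≠ z2) (hop : z1 + z2 ≠ 2 * m) :
    (T m).ncard = 3 := by
  have h6 : 5 ≤ (T z1).ncard := by
    rw [h1, Set.ncard_univ, Nat.card_eq_fintype_card, Fintype.card_fin]; norm_num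
  have h3 := F.cl z1 m h6 hm1
  by_contra hcon
  have h4 : (T m).ncard ≤ 2 := by omega
  obtain ⟨i, hi⟩ := F.irr.ne m
  have hpos : 0 < (T m).ncard := Set.ncard_pos (Set.toFinite _) |>.2 ⟨i, hi⟩
  rcases (by omega : (T m).ncard = 1 ∨ (T m).ncard = 2) with h5 | h5
  · have h7 : T m ⊆ {i} := fun j hj =>
      (Set.ncard_le_one (Set.toFinite _)).1 h5.le j hj i hi
    exact F.irr.mx.notMem' (F.irr.mem_of_single h7) hm1 (F.irr.sub z1 (by rw [h1]; trivial))
  · have h7 := F.irr.pair_open (z := z1) (y := m) h5 (by rw [h1]; exact subset_univ _)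
      Subset.rfl
    have hs : Stay T z1 m i := h7.mono fun y hy => by rw [hy]; exact hi
    rcases hs.line F.irr (by rw [dist_comm]; exact hm1) (p := z2) (by rw [dist_comm]; exact hm2)
      (by rw [h2]; trivial) with h8 | h8
    · exact hne h8.symm
    · exact hop (by linear_combination h8)

end Vale.Agent.P032.S5.H913
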