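import Vale.Agent.P032.S5.H913.Compl1

/-!
# P032: the complement rule at six coloured points, part 2

Three coloured points accumulate at a common point of two six coloured points.
-/

open Set Filter Topology Metric

noncomputable section

namespace Vale.Agent.P032.S5.H913

open Vale.Agent.P032.Six Vale.Agent.P032.S5.H450

variable {U : Fin 6 → Set ℂ} {T : ℂ → Set (Fin 6)} {X : Set (Fin 6)} {z v q : ℂ}

theorem cis_add (a b : ℝ) : cis (a + b) = cis a * cis b := by
  simp [cis, add_mul, Complex.exp_add]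

theorem cis_im (a : ℝ) : (cis a).im = Real.sin a := by
  simp [cis, Complex.exp_ofReal_mul_I_im]

theorem cis_re (a : ℝ) : (cis a).re = Real.cos a := by
  simp [cis, Complex.exp_ofReal_mul_I_re]

theorem exists_theta {u p : ℂ} (hpu : dist p u = 1) {ε : ℝ} (hε : 0 < ε) :
    ∀ᶠ y in 𝓝[sphere u 1] p, ∃ θ : ℝ, |θ| < ε ∧ y = u + (p - u) * cis θ := by
  have hp0 : p - u ≠ 0 := by
    intro h
    rw [sub_eq_zero] at h
    rw [h, dist_self] at hpu
    norm_num at hpu
  have h1 : Tendsto (fun y : ℂ => ((y - u) / (p - u)).arg) (𝓝 p) (𝓝 0) := by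
    have h3 : (p - u) / (p - u) = 1 := div_self hp0
    have h2 : ContinuousAt (fun y : ℂ => ((y - u) / (p - u)).arg) p := by
      refine ContinuousAt.comp (g := Complex.arg) (f := fun y : ℂ => (y - u) / (p - u)) ?_ ?_
      · rw [h3]; exact Complex.continuousAt_arg Complex.one_mem_slitPlane
      · exact ((continuous_id.sub continuous_const).div_const _).continuousAt
    have h4 := h2.tendsto
    rwa [h3, Complex.arg_one] at h4
  filter_upwards [mem_nhdsWithin_of_mem_nhds (h1.eventually (Metric.ball_mem_nhds 0 hε)),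
    self_mem_nhdsWithin] with y hy1 hy2
  have hy3 : dist y u = 1 := hy2
  refine ⟨((y - u) / (p - u)).arg, by simpa [Real.dist_eq] using hy1, ?_⟩
  have h4 : ‖(y - u) / (p - u)‖ = 1 := by
    rw [norm_div, ← dist_eq_norm, ← dist_eq_norm, hpu, hy3, div_one]
  have h5 := Complex.norm_mul_exp_arg_mul_I ((y - u) / (p - u))
  rw [h4] at h5
  have h6 : cis (((y - u) / (p - u)).arg) = (y - u) / (p - u) := by simpa [cis] using h5
  rw [h6]
  field_simp
  ring

theorem letters (F : F6 U T) {p u u' : ℂ} (hY : (T p).ncard = 3) (hu : T u = univ)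
    (hu' : T u' = univ) (hpu : dist p u = 1) (hpu' : dist p u' = 1) (hne : u' ≠ u)
    (hop : u' + u ≠ 2 * p) {ε : ℝ} (hε : 0 < ε) {t : Fin 6} (ht : t ∈ T p) :
    ∃ θ : ℝ, |θ| < ε ∧ T (u + (p - u) * cis θ) = T p \ {t} := by
  obtain ⟨V, hV, hVs⟩ := mem_nhdsWithin_iff_exists_mem_nhds_inter.1 (exists_theta hpu hε)
  have hns : ¬ Stay T u p t :=
    not_stay F.irr (by rw [dist_comm]; exact hpu) (by rw [dist_comm]; exact hpu') hne hop
      (by rw [hu']; trivial)
  obtain ⟨y, hyV, hyu, hyT⟩ := pair_near F.irr (X := T p) rfl hns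
    (by rw [hu]; exact subset_univ _)
    (by rw [Set.ncard_sdiff_singleton_of_mem ht, hY]) hV
  obtain ⟨θ, h1, h2⟩ := hVs ⟨hyV, hyu⟩
  exact ⟨θ, h1, by rw [← h2]; exact hyT⟩

/-- **(C)** -/
theorem near (F : F6 U T) {p u u' : ℂ} (hY : (T p).ncard = 3) (hu : T u = univ)
    (hu' : T u' = univ) (hpu : dist p u = 1) (hpu' : dist p u' = 1) (hne : u' ≠ u)
    (hop : u' + u ≠ 2 * p) {V : Set ℂ} (hV : V ∈ 𝓝 p) :
    ∃ p' ∈ V, p' ≠ p ∧ dist p' u = 1 ∧ T p' = T p ∧ ∃ o : ℝ, (o = 1 ∨ o = -1) ∧ ∃ η > 0,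
      ∀ s ∈ Ioo 0 η, (T (u + (p' - u) * cis (o * s))).ncard = 2 := by
  obtain ⟨y, hy⟩ : ∃ y : ℝ → ℂ, y = fun θ => u + (p - u) * cis θ := ⟨_, rfl⟩
  have hyc : Continuous y := by
    rw [hy]; exact continuous_const.add (continuous_const.mul continuous_cis)
  have hy0 : y 0 = p := by rw [hy]; simp [cis]
  have hyd : ∀ θ, dist (y θ) u = 1 := by
    intro θ
    rw [hy, dist_eq_norm, add_sub_cancel_left, norm_mul, norm_cis, mul_one, ← dist_eq_norm, hpu]
  have hev : ∀ᶠ θ in 𝓝 (0 : ℝ), y θ ∈ V ∧ T (y θ) ⊆ T p := by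
    have h1 : Tendsto y (𝓝 0) (𝓝 p) := by
      have := hyc.tendsto 0
      rwa [hy0] at this
    exact (h1.eventually hV).and (h1.eventually (F.irr.nhd p))
  obtain ⟨ε0, hε0, hb⟩ := Metric.eventually_nhds_iff.1 hev
  obtain ⟨ε, hεd⟩ : ∃ ε, ε = min ε0 1 := ⟨_, rfl⟩
  have hε : 0 < ε := by rw [hεd]; exact lt_min hε0 one_pos
  have hε1 : ε ≤ 1 := by rw [hεd]; exact min_le_right _ _
  have hb' : ∀ θ, |θ| < ε → y θ ∈ V ∧ T (y θ) ⊆ T p := fun θ hθ =>
    hb (by rw [Real.dist_eq, sub_zero]; exact hθ.trans_le (by rw [hεd]; exact min_le_left _ _))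
  have core : ∀ o : ℝ, (o = 1 ∨ o = -1) → ∀ s1 s2 : ℝ, 0 < s1 → s1 < s2 → s2 < ε →
      T (y (o * s1)) ≠ T (y (o * s2)) → (T (y (o * s2))).ncard = 2 →
      ∃ p' ∈ V, p' ≠ p ∧ dist p' u = 1 ∧ T p' = T p ∧ ∃ o : ℝ, (o = 1 ∨ o = -1) ∧ ∃ η > 0,
      ∀ s ∈ Ioo 0 η, (T (u + (p' - u) * cis (o * s))).ncard = 2 := by
    intro o ho s1 s2 hs1 hs12 hs2 hTne hT2
    obtain ⟨P, hP⟩ : ∃ P, P = T (y (o * s2)) := ⟨_, rfl⟩
    rw [← hP] at hTne hT2
    have hoc : Continuous fun s : ℝ => y (o * s) := hyc.comp (continuous_const.mul continuous_id)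
    have hopen : IsOpen {s : ℝ | T (y (o * s)) = P} := by
      rw [isOpen_iff_mem_nhds]
      intro s hs
      have h1 := F.irr.pair_open (z := u) (y := y (o * s)) hT2 (by rw [hu]; exact subset_univ _)
        (show T (y (o * s)) ⊆ P from (show T (y (o * s)) = P from hs).subset)
      have h2 : Tendsto (fun s : ℝ => y (o * s)) (𝓝 s) (𝓝[sphere u 1] (y (o * s))) :=
        tendsto_nhdsWithin_iff.2 ⟨hoc.tendsto s, Filter.Eventually.of_forall fun s' => hyd _⟩
      exact h2.eventually h1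
    obtain ⟨S, hS⟩ : ∃ S : Set ℝ, S = Icc s1 s2 ∩ {s : ℝ | T (y (o * s)) = P}ᶜ := ⟨_, rfl⟩
    have hSc : IsClosed S := by rw [hS]; exact isClosed_Icc.inter hopen.isClosed_compl
    have hSn : S.Nonempty := ⟨s1, by rw [hS]; exact ⟨⟨le_rfl, hs12.le⟩, hTne⟩⟩
    have hSb : BddAbove S := ⟨s2, by rw [hS]; rintro s hs; exact hs.1.2⟩
    obtain ⟨m, hmd⟩ : ∃ m, m = sSup S := ⟨_, rfl⟩
    have hm : m ∈ S := by rw [hmd]; exact hSc.csSup_mem hSn hSb
    have hm' := hm
    rw [hS] at hm'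
    obtain ⟨⟨hm1, hm2⟩, hm3⟩ := hm'
    have hm4 : m < s2 := by
      refine lt_of_le_of_ne hm2 ?_
      rintro rfl
      exact hm3 hP.symm
    have hgap : ∀ s, m < s → s ≤ s2 → T (y (o * s)) = P := by
      intro s h1 h2
      by_contra hcon
      have h3 : s ∈ S := by rw [hS]; exact ⟨⟨hm1.trans h1.le, h2⟩, hcon⟩
      have h4 := le_csSup hSb h3
      rw [← hmd] at h4
      linarith
    have hsub : P ⊆ T (y (o * m)) := by
      intro i hi
      have hcl : IsClosed {s : ℝ | i ∈ T (y (o * s))} := (F.irr.closed i).preimage hoc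
      have h1 : Ioo m s2 ⊆ {s : ℝ | i ∈ T (y (o * s))} := fun s hs => by
        show i ∈ T (y (o * s))
        rw [hgap s hs.1 hs.2.le]; exact hi
      have h2 := closure_minimal h1 hcl
      rw [closure_Ioo hm4.ne] at h2
      exact h2 ⟨le_rfl, hm4.le⟩
    have hm0 : 0 < m := hs1.trans_le hm1
    have hom : |o * m| < ε := by
      rw [abs_mul]
      have : |o| = 1 := by rcases ho with rfl | rfl <;> simp
      rw [this, one_mul, abs_of_pos hm0]
      exact hm4.trans hs2
    have hTm : T (y (o * m)) = T p := by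
      have h1 := (hb' _ hom).2
      refine Set.eq_of_subset_of_ncard_le h1 ?_ (Set.toFinite _)
      have h2 : P ⊂ T (y (o * m)) := ssubset_of_subset_of_ne hsub fun h3 => hm3 h3.symm
      have h3 := Set.ncard_lt_ncard h2 (Set.toFinite _)
      omega
    refine ⟨y (o * m), (hb' _ hom).1, ?_, hyd _, hTm, o, ho, s2 - m, by linarith, ?_⟩
    · intro h1
      have hp0 : p - u ≠ 0 := by
        intro h
        rw [sub_eq_zero] at h
        rw [h, dist_self] at hpu
        norm_num at hpu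
      have h2 : cis (o * m) = 1 := by
        have h3 : (p - u) * cis (o * m) = (p - u) * 1 := by
          rw [hy] at h1
          linear_combination h1
        exact mul_left_cancel₀ hp0 h3
      have h3 : Real.sin (o * m) = 0 := by rw [← cis_im, h2]; simp
      have h4 : 0 < Real.sin m := Real.sin_pos_of_pos_of_lt_pi hm0 (by
        have := Real.pi_gt_three
        linarith)
      rcases ho with rfl | rfl
      · rw [one_mul] at h3; linarith
      · rw [neg_one_mul, Real.sin_neg] at h3; linarith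
    · intro s hs
      have e : u + (y (o * m) - u) * cis (o * s) = y (o * (m + s)) := by
        rw [hy]
        simp only [add_sub_cancel_left]
        rw [mul_assoc, ← cis_add, mul_add]
      rw [e, hgap (m + s) (by linarith [hs.1]) (by linarith [hs.2])]
      exact hT2
  have two : ∀ a b : ℝ, |a| < ε → |b| < ε → 0 < a * b → T (y a) ≠ T (y b) →
      (T (y a)).ncard = 2 → (T (y b)).ncard = 2 →
      ∃ p' ∈ V, p' ≠ p ∧ dist p' u = 1 ∧ T p' = T p ∧ ∃ o : ℝ, (o = 1 ∨ o = -1) ∧ ∃ η > 0,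
      ∀ s ∈ Ioo 0 η, (T (u + (p' - u) * cis (o * s))).ncard = 2 := by
    intro a b ha hb hab hne ha2 hb2
    rcases lt_trichotomy a 0 with h1 | h1 | h1
    · have h2 : b < 0 := by
        by_contra h3
        push Not at h3
        nlinarith
      rw [abs_of_neg h1] at ha
      rw [abs_of_neg h2] at hb
      have e1 : (-1 : ℝ) * -a = a := by ring
      have e2 : (-1 : ℝ) * -b = b := by ring
      rcases lt_trichotomy (-a) (-b) with h3 | h3 | h3
      · exact core (-1) (Or.inr rfl) (-a) (-b) (by linarith) h3 hb (by rw [e1, e2]; exact hne)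
          (by rw [e2]; exact hb2)
      · exact absurd (by rw [neg_injective h3]) hne
      · exact core (-1) (Or.inr rfl) (-b) (-a) (by linarith) h3 ha (by rw [e1, e2]; exact hne.symm)
          (by rw [e1]; exact ha2)
    · rw [h1, zero_mul] at hab
      exact absurd hab (lt_irrefl _)
    · have h2 : 0 < b := by
        by_contra h3
        push Not at h3
        nlinarith
      rw [abs_of_pos h1] at ha
      rw [abs_of_pos h2] at hb
      rcases lt_trichotomy a b with h3 | h3 | h3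
      · exact core 1 (Or.inl rfl) a b h1 h3 hb (by rw [one_mul, one_mul]; exact hne)
          (by rw [one_mul]; exact hb2)
      · exact absurd (by rw [h3]) hne
      · exact core 1 (Or.inl rfl) b a h2 h3 ha (by rw [one_mul, one_mul]; exact hne.symm)
          (by rw [one_mul]; exact ha2)
  obtain ⟨t1, t2, t3, h12, h13, h23, hTe⟩ := Set.ncard_eq_three.1 hY
  have m1 : t1 ∈ T p := by rw [hTe]; simp
  have m2 : t2 ∈ T p := by rw [hTe]; simp
  have m3 : t3 ∈ T p := by rw [hTe]; simp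
  have get := fun t (ht : t ∈ T p) => letters F hY hu hu' hpu hpu' hne hop hε ht
  obtain ⟨a1, ha1, hA1⟩ := get t1 m1
  obtain ⟨a2, ha2, hA2⟩ := get t2 m2
  obtain ⟨a3, ha3, hA3⟩ := get t3 m3
  have hA1 : T (y a1) = T p \ {t1} := by rw [hy]; exact hA1
  have hA2 : T (y a2) = T p \ {t2} := by rw [hy]; exact hA2
  have hA3 : T (y a3) = T p \ {t3} := by rw [hy]; exact hA3
  have c2 : ∀ t ∈ T p, (T p \ {t}).ncard = 2 := fun t ht => by
    rw [Set.ncard_sdiff_singleton_of_mem ht, hY]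
  have hne' : ∀ {s t : Fin 6}, s ∈ T p → s ≠ t → T p \ {s} ≠ T p \ {t} := by
    intro s t hs hst he
    have : s ∈ T p \ {s} := he ▸ ⟨hs, hst⟩
    exact this.2 rfl
  have nz : ∀ a t, t ∈ T p → T (y a) = T p \ {t} → a ≠ 0 := by
    rintro a t ht h1 rfl
    rw [hy0] at h1
    have := h1 ▸ ht
    exact this.2 rfl
  have z1 := nz a1 t1 m1 hA1
  have z2 := nz a2 t2 m2 hA2
  have z3 := nz a3 t3 m3 hA3
  have n12 : T (y a1) ≠ T (y a2) := by rw [hA1, hA2]; exact hne' m1 h12
  have n13 : T (y a1) ≠ T (y a3) := by rw [hA1, hA3]; exact hne' m1 h13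
  have n23 : T (y a2) ≠ T (y a3) := by rw [hA2, hA3]; exact hne' m2 h23
  have d1 : (T (y a1)).ncard = 2 := by rw [hA1]; exact c2 t1 m1
  have d2 : (T (y a2)).ncard = 2 := by rw [hA2]; exact c2 t2 m2
  have d3 : (T (y a3)).ncard = 2 := by rw [hA3]; exact c2 t3 m3
  rcases lt_or_gt_of_ne z1 with s1 | s1 <;> rcases lt_or_gt_of_ne z2 with s2 | s2
  · exact two a1 a2 ha1 ha2 (mul_pos_of_neg_of_neg s1 s2) n12 d1 d2
  · rcases lt_or_gt_of_ne z3 with s3 | s3
    · exact two a1 a3 ha1 ha3 (mul_pos_of_neg_of_neg s1 s3) n13 d1 d3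
    · exact two a2 a3 ha2 ha3 (mul_pos s2 s3) n23 d2 d3
  · rcases lt_or_gt_of_ne z3 with s3 | s3
    · exact two a2 a3 ha2 ha3 (mul_pos_of_neg_of_neg s2 s3) n23 d2 d3
    · exact two a1 a3 ha1 ha3 (mul_pos s1 s3) n13 d1 d3
  · exact two a1 a2 ha1 ha2 (mul_pos s1 s2) n12 d1 d2

end Vale.Agent.P032.S5.H913
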