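import Vale.Agent.P032.S5.H913.Compl2

/-!
# P032: the complement rule at six coloured points, part 3: geometry
-/

open Set Filter Topology Metric

noncomputable section

namespace Vale.Agent.P032.S5.H913

open Vale.Agent.P032.Six Vale.Agent.P032.S5.H450

/-- a common point of the unit circles about `w` and `ζ` -/
def cmn (κ : ℝ) (w ζ : ℂ) : ℂ :=
  w + (ζ - w) * ((1 / 2 : ℂ) + ((κ * Real.sqrt (1 / ‖ζ - w‖ ^ 2 - 1 / 4) : ℝ) : ℂ) * Complex.I)

theorem norm_half (s : ℝ) : ‖(1 / 2 : ℂ) + (s : ℂ) * Complex.I‖ ^ 2 = 1 / 4 + s ^ 2 := by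
  rw [Complex.sq_norm, Complex.normSq_apply]
  simp
  ring

theorem norm_half' (s : ℝ) : ‖(1 / 2 : ℂ) + (s : ℂ) * Complex.I - 1‖ ^ 2 = 1 / 4 + s ^ 2 := by
  rw [Complex.sq_norm, Complex.normSq_apply]
  simp
  ring

theorem cmn_dist {κ : ℝ} (hκ : κ ^ 2 = 1) {w ζ : ℂ} (hne : ζ ≠ w)
    (h2 : 0 ≤ 1 / ‖ζ - w‖ ^ 2 - 1 / 4) : dist (cmn κ w ζ) w = 1 ∧ dist (cmn κ w ζ) ζ = 1 := by
  have hD : 0 < ‖ζ - w‖ := norm_pos_iff.2 (sub_ne_zero.2 hne)
  have hs : (κ * Real.sqrt (1 / ‖ζ - w‖ ^ 2 - 1 / 4)) ^ 2 = 1 / ‖ζ - w‖ ^ 2 - 1 / 4 := by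
    rw [mul_pow, hκ, one_mul, Real.sq_sqrt h2]
  have e1 : cmn κ w ζ - w = (ζ - w) * ((1 / 2 : ℂ) +
      ((κ * Real.sqrt (1 / ‖ζ - w‖ ^ 2 - 1 / 4) : ℝ) : ℂ) * Complex.I) := by
    unfold cmn; ring
  have e2 : cmn κ w ζ - ζ = (ζ - w) * ((1 / 2 : ℂ) +
      ((κ * Real.sqrt (1 / ‖ζ - w‖ ^ 2 - 1 / 4) : ℝ) : ℂ) * Complex.I - 1) := by
    unfold cmn; ring
  have aux : ∀ x : ℝ, 0 ≤ x → x ^ 2 = 1 → x = 1 := fun x hx h => by nlinarith
  constructor
  · rw [dist_eq_norm, e1]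
    refine aux _ (norm_nonneg _) ?_
    rw [norm_mul, mul_pow, norm_half, hs]
    field_simp
    ring
  · rw [dist_eq_norm, e2]
    refine aux _ (norm_nonneg _) ?_
    rw [norm_mul, mul_pow, norm_half', hs]
    field_simp
    ring

theorem cmn_cont {κ : ℝ} {w ζ : ℂ} (hne : ζ ≠ w) : ContinuousAt (cmn κ w) ζ := by
  have hD : ‖ζ - w‖ ^ 2 ≠ 0 := pow_ne_zero 2 (norm_ne_zero_iff.2 (sub_ne_zero.2 hne))
  unfold cmn
  have h1 : ContinuousAt (fun ζ : ℂ => ζ - w) ζ := (continuous_id.sub continuous_const).continuousAt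
  have h2 : ContinuousAt (fun ζ : ℂ => ‖ζ - w‖ ^ 2) ζ := (h1.norm).pow 2
  have h3 : ContinuousAt (fun ζ : ℂ => κ * Real.sqrt (1 / ‖ζ - w‖ ^ 2 - 1 / 4)) ζ :=
    continuousAt_const.mul (((continuousAt_const.div h2 hD).sub continuousAt_const).sqrt)
  refine continuousAt_const.add (h1.mul (continuousAt_const.add ?_))
  exact (Complex.continuous_ofReal.continuousAt.comp h3).mul continuousAt_const

theorem cmn_exists {w z v : ℂ} (hvw : dist v w = 1) (hvz : dist v z = 1) (hne : z ≠ w)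
    (hop : z + w ≠ 2 * v) : ∃ κ : ℝ, κ ^ 2 = 1 ∧ cmn κ w z = v ∧ 0 < 1 / ‖z - w‖ ^ 2 - 1 / 4 := by
  have hD0 : z - w ≠ 0 := sub_ne_zero.2 hne
  have hD : 0 < ‖z - w‖ := norm_pos_iff.2 hD0
  obtain ⟨ω, hω⟩ : ∃ ω : ℂ, ω = (v - w) / (z - w) := ⟨_, rfl⟩
  have hvω : v - w = (z - w) * ω := by rw [hω]; field_simp
  have h1 : ‖z - w‖ * ‖ω‖ = 1 := by rw [← norm_mul, ← hvω, ← dist_eq_norm, hvw]
  have h2 : ‖z - w‖ * ‖ω - 1‖ = 1 := by
    rw [← norm_mul, show (z - w) * (ω - 1) = v - z by linear_combination -hvω, ← dist_eq_norm, hvz]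
  have h3 : ‖ω‖ = ‖ω - 1‖ := mul_left_cancel₀ hD.ne' (h1.trans h2.symm)
  have h4 : ω.re ^ 2 + ω.im ^ 2 = (ω.re - 1) ^ 2 + ω.im ^ 2 := by
    have a := Complex.sq_norm ω
    have b := Complex.sq_norm (ω - 1)
    rw [Complex.normSq_apply] at a b
    rw [h3, b] at a
    simp only [Complex.sub_re, Complex.sub_im, Complex.one_re, Complex.one_im, sub_zero] at a
    nlinarith
  have hre : ω.re = 1 / 2 := by nlinarith
  have h5 : ‖ω‖ ^ 2 = 1 / 4 + ω.im ^ 2 := by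
    rw [Complex.sq_norm, Complex.normSq_apply, hre]; ring
  have h6 : 1 / ‖z - w‖ ^ 2 = 1 / 4 + ω.im ^ 2 := by
    rw [← h5]
    rw [div_eq_iff (by positivity)]
    have : (‖z - w‖ * ‖ω‖) ^ 2 = 1 := by rw [h1]; norm_num
    nlinarith
  have hωe : ω = (1 / 2 : ℂ) + ((ω.im : ℝ) : ℂ) * Complex.I := by
    apply Complex.ext
    · simp [hre]
    · simp
  have him : ω.im ≠ 0 := by
    intro h0
    rw [h0] at hωe
    refine hop ?_
    have : v - w = (z - w) * (1 / 2) := by rw [hvω, hωe]; simp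
    linear_combination (-2 : ℂ) * this
  have h7 : 1 / ‖z - w‖ ^ 2 - 1 / 4 = ω.im ^ 2 := by rw [h6]; ring
  have h8 : Real.sqrt (1 / ‖z - w‖ ^ 2 - 1 / 4) = |ω.im| := by rw [h7, Real.sqrt_sq_eq_abs]
  have fin : ∀ κ : ℝ, κ * |ω.im| = ω.im → cmn κ w z = v := by
    intro κ hκ
    unfold cmn
    rw [h8, hκ, ← hωe, ← hvω]
    ring
  rcases le_or_gt 0 ω.im with h9 | h9
  · exact ⟨1, by norm_num, fin 1 (by rw [abs_of_nonneg h9, one_mul]), by rw [h7]; positivity⟩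
  · exact ⟨-1, by norm_num, fin (-1) (by rw [abs_of_neg h9]; ring), by rw [h7]; positivity⟩

/-- scalar product -/
def dtr (a b : ℂ) : ℝ := a.re * b.re + a.im * b.im

theorem sgn1 {a b w y Y : ℂ} (ha : dist a w = 1) (hb : dist b w = 1)
    (hy : dist (Y + a - w) y = 1) :
    dist (Y + b - w) y ^ 2 - 1 = 2 * dtr (Y - y) (b - a) := by
  have s1 := sq_dist a w
  have s2 := sq_dist b w
  have s3 := sq_dist (Y + a - w) y
  rw [ha] at s1
  rw [hb] at s2
  rw [hy] at s3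
  rw [sq_dist]
  unfold dtr
  simp only [Complex.sub_re, Complex.sub_im, Complex.add_re, Complex.add_im] at s3 ⊢
  linear_combination s1 - s2 - s3

theorem sgn2 {a b w F1 F2 : ℂ} (ha : dist a w = 1) (hb : dist b w = 1) (hab : a ≠ b)
    (hop : a + b ≠ 2 * w) (h : 0 < cr (a + b - 2 * w) F1 * cr (a + b - 2 * w) F2) :
    0 < dtr F1 (b - a) * dtr F2 (b - a) := by
  have s1 := sq_dist a w
  have s2 := sq_dist b w
  rw [ha] at s1
  rw [hb] at s2
  obtain ⟨S1, hS1⟩ : ∃ x, x = (a + b - 2 * w).re := ⟨_, rfl⟩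
  obtain ⟨S2, hS2⟩ : ∃ x, x = (a + b - 2 * w).im := ⟨_, rfl⟩
  obtain ⟨d1, hd1⟩ : ∃ x, x = (b - a).re := ⟨_, rfl⟩
  obtain ⟨d2, hd2⟩ : ∃ x, x = (b - a).im := ⟨_, rfl⟩
  have hort : S1 * d1 + S2 * d2 = 0 := by
    rw [hS1, hS2, hd1, hd2]
    simp
    linear_combination s1 - s2
  have hn : 0 < S1 ^ 2 + S2 ^ 2 := by
    by_contra h0
    have e1 : S1 = 0 := by nlinarith [sq_nonneg S1, sq_nonneg S2]
    have e2 : S2 = 0 := by nlinarith [sq_nonneg S1, sq_nonneg S2]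
    refine hop ?_
    have : a + b - 2 * w = 0 := Complex.ext (by rw [← hS1, e1]; simp) (by rw [← hS2, e2]; simp)
    linear_combination this
  have hd : 0 < d1 ^ 2 + d2 ^ 2 := by
    by_contra h0
    have e1 : d1 = 0 := by nlinarith [sq_nonneg d1, sq_nonneg d2]
    have e2 : d2 = 0 := by nlinarith [sq_nonneg d1, sq_nonneg d2]
    refine hab ?_
    have : b - a = 0 := Complex.ext (by rw [← hd1, e1]; simp) (by rw [← hd2, e2]; simp)
    linear_combination -this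
  have hcr : (S1 * d2 - S2 * d1) ^ 2 = (S1 ^ 2 + S2 ^ 2) * (d1 ^ 2 + d2 ^ 2) := by
    have : (S1 * d2 - S2 * d1) ^ 2 + (S1 * d1 + S2 * d2) ^ 2 =
      (S1 ^ 2 + S2 ^ 2) * (d1 ^ 2 + d2 ^ 2) := by ring
    rw [hort] at this
    linarith
  unfold cr at h
  unfold dtr
  rw [← hS1, ← hS2] at h
  rw [← hd1, ← hd2]
  have k1 : (F1.re * d1 + F1.im * d2) * (S1 ^ 2 + S2 ^ 2) =
      (S1 * d2 - S2 * d1) * (S1 * F1.im - S2 * F1.re) := by
    linear_combination (F1.re * S1 + F1.im * S2) * hort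
  have k2 : (F2.re * d1 + F2.im * d2) * (S1 ^ 2 + S2 ^ 2) =
      (S1 * d2 - S2 * d1) * (S1 * F2.im - S2 * F2.re) := by
    linear_combination (F2.re * S1 + F2.im * S2) * hort
  have k3 : (F1.re * d1 + F1.im * d2) * (F2.re * d1 + F2.im * d2) * (S1 ^ 2 + S2 ^ 2) ^ 2 =
      (S1 * d2 - S2 * d1) ^ 2 * ((S1 * F1.im - S2 * F1.re) * (S1 * F2.im - S2 * F2.re)) := by
    calc _ = ((F1.re * d1 + F1.im * d2) * (S1 ^ 2 + S2 ^ 2)) *
        ((F2.re * d1 + F2.im * d2) * (S1 ^ 2 + S2 ^ 2)) := by ring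
      _ = _ := by rw [k1, k2]; ring
  have k4 : 0 < (S1 * d2 - S2 * d1) ^ 2 *
      ((S1 * F1.im - S2 * F1.re) * (S1 * F2.im - S2 * F2.re)) := by
    rw [hcr]; exact mul_pos (mul_pos hn hd) h
  rw [← k3] at k4
  exact pos_of_mul_pos_left k4 (by positivity)

theorem cis_ne_one {o m : ℝ} (ho : o = 1 ∨ o = -1) (h0 : 0 < m) (h1 : m ≤ 1) :
    cis (o * m) ≠ 1 := by
  intro h2
  have h3 : Real.sin (o * m) = 0 := by rw [← cis_im, h2]; simp
  have h4 : 0 < Real.sin m := Real.sin_pos_of_pos_of_lt_pi h0 (by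
    have := Real.pi_gt_three
    linarith)
  rcases ho with rfl | rfl
  · rw [one_mul] at h3; linarith
  · rw [neg_one_mul, Real.sin_neg] at h3; linarith

theorem arc_dist {z y : ℂ} (hy : dist y z = 1) (θ : ℝ) :
    dist (z + (y - z) * cis θ) z = 1 := by
  rw [dist_eq_norm, add_sub_cancel_left, norm_mul, norm_cis, mul_one, ← dist_eq_norm, hy]

theorem arc_ne {z y : ℂ} (hy : dist y z = 1) {o s t : ℝ} (ho : o = 1 ∨ o = -1) (hst : s < t)
    (h1 : t - s ≤ 1) : z + (y - z) * cis (o * s) ≠ z + (y - z) * cis (o * t) := by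
  intro h
  have hp0 : y - z ≠ 0 := by
    intro h
    rw [sub_eq_zero] at h
    rw [h, dist_self] at hy
    norm_num at hy
  have h2 : (y - z) * cis (o * s) ≠ 0 := mul_ne_zero hp0 (norm_ne_zero_iff.1 (by
    rw [norm_cis]; norm_num))
  have h3 : ((y - z) * cis (o * s)) * cis (o * (t - s)) = ((y - z) * cis (o * s)) * 1 := by
    rw [mul_assoc, ← cis_add, show o * s + o * (t - s) = o * t by ring, mul_one]
    linear_combination -h
  exact cis_ne_one ho (by linarith) h1 (mul_left_cancel₀ h2 h3)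

/-- a point of the arc off the other circle -/
theorem exists_off {z y ζ : ℂ} (hy : dist y z = 1) (hyζ : dist y ζ = 1) (hne : z ≠ ζ) {o η : ℝ}
    (ho : o = 1 ∨ o = -1) (hη : 0 < η) :
    ∃ s ∈ Ioo 0 η, dist (z + (y - z) * cis (o * s)) ζ ≠ 1 := by
  obtain ⟨s, hs⟩ : ∃ s, s = min η 1 / 2 := ⟨_, rfl⟩
  have hm : 0 < min η 1 := lt_min hη one_pos
  have hm1 : min η 1 ≤ η := min_le_left _ _
  have hm2 : min η 1 ≤ 1 := min_le_right _ _
  have h0 : 0 < s := by rw [hs]; linarith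
  have h1 : s < η := by rw [hs]; linarith
  have h2 : s ≤ 1 := by rw [hs]; linarith
  by_cases hA : dist (z + (y - z) * cis (o * s)) ζ = 1
  · refine ⟨s / 2, ⟨by linarith, by linarith⟩, fun hB => ?_⟩
    have e0 : z + (y - z) * cis (o * 0) = y := by simp [cis]
    have n1 : y ≠ z + (y - z) * cis (o * s) := by
      have := arc_ne hy ho h0 (by linarith)
      rwa [e0] at this
    have n2 : z + (y - z) * cis (o * (s / 2)) ≠ z + (y - z) * cis (o * s) :=
      arc_ne hy ho (by linarith) (by linarith)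
    have n3 : y ≠ z + (y - z) * cis (o * (s / 2)) := by
      have := arc_ne hy ho (s := 0) (t := s / 2) (by linarith) (by linarith)
      rwa [e0] at this
    rcases circle_two (z := z) (w := ζ) (V := y) (Q := z + (y - z) * cis (o * s)) hy
      (arc_dist hy _) (arc_dist hy _) hyζ hA hB hne n1 with h3 | h3
    · exact n3 h3.symm
    · exact n2 h3
  · exact ⟨s, ⟨h0, h1⟩, hA⟩

/-- intermediate value -/
theorem exists_cross {z y c : ℂ} {o s0 : ℝ} (hs0 : 0 < s0)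
    (h : (dist y c - 1) * (dist (z + (y - z) * cis (o * s0)) c - 1) < 0) :
    ∃ s ∈ Ioo 0 s0, dist (z + (y - z) * cis (o * s)) c = 1 := by
  have hc : ContinuousOn (fun s : ℝ => dist (z + (y - z) * cis (o * s)) c) (Icc 0 s0) := by
    refine (Continuous.dist ?_ continuous_const).continuousOn
    exact continuous_const.add (continuous_const.mul
      (continuous_cis.comp (continuous_const.mul continuous_id)))
  have e0 : dist (z + (y - z) * cis (o * 0)) c = dist y c := by simp [cis]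
  rcases lt_or_ge (dist y c) 1 with h1 | h1
  · have h2 : 1 < dist (z + (y - z) * cis (o * s0)) c := by
      by_contra h3
      push Not at h3
      nlinarith
    obtain ⟨s, hs, hs'⟩ := intermediate_value_Ioo hs0.le hc (show (1 : ℝ) ∈ Ioo _ _ from
      ⟨by rw [e0]; exact h1, h2⟩)
    exact ⟨s, hs, hs'⟩
  · have h2 : dist (z + (y - z) * cis (o * s0)) c < 1 := by
      by_contra h3
      push Not at h3
      nlinarith
    have h3 : 1 < dist y c := by
      rcases h1.lt_or_eq with h4 | h4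
      · exact h4
      · rw [← h4] at h; norm_num at h
    obtain ⟨s, hs, hs'⟩ := intermediate_value_Ioo' hs0.le hc (show (1 : ℝ) ∈ Ioo _ _ from
      ⟨h2, by rw [e0]; exact h3⟩)
    exact ⟨s, hs, hs'⟩

end Vale.Agent.P032.S5.H913
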