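import Vale.Agent.P032.S5.H306.Defs
import Vale.Agent.P032.S5.H394.Ends

/-!
# P032: the ends of the arcs of a D-star pair

`DP.dir_eq9` : the two circles carry their arcs in the same directions.  `DP.not_axis9`.
`DP.ends9` : at a boundary direction both points have four colours.
-/

open Set Filter Topology Metric

noncomputable section

namespace Vale.Agent.P032.Six

theorem pair_other913 {k : ℕ} {A : Set (Fin k)} (hA : A.ncard = 2) {t : Fin k} (ht : t ∈ A) :
    ∃ u, u ≠ t ∧ A = {t, u} := by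
  obtain ⟨p, q, hpq, rfl⟩ := Set.ncard_eq_two.1 hA
  rcases ht with rfl | ht
  · exact ⟨q, hpq.symm, rfl⟩
  · have ht : t = q := ht
    subst ht
    exact ⟨p, hpq, Set.pair_comm _ _⟩

/-- a colour with a partner off the line is frequently absent -/
theorem Irr.freq_not {k : ℕ} {U : Fin k → Set ℂ} {T : ℂ → Set (Fin k)} (h : Irr U T) {u p r : ℂ}
    {t : Fin k} (hup : dist p u = 1) (hpr : dist p r = 1) (ht : t ∈ T r) (h1 : r ≠ u)
    (h2 : r + u ≠ 2 * p) : ∃ᶠ x in 𝓝[sphere u 1] p, t ∉ T x := by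
  intro hcon
  have h3 : ∀ᶠ x in 𝓝[sphere u 1] p, t ∈ Pal U x :=
    hcon.mono fun x hx => h.sub x (not_not.1 hx)
  rcases h.mx.partner_line hup h3 hpr (h.sub r ht) with h4 | h4
  · exact h1 h4
  · exact h2 h4

/-- the broken pair avoids a colour which is frequently absent -/
theorem Harm.pull {k : ℕ} {U : Fin k → Set ℂ} {T : ℂ → Set (Fin k)} (h : Irr U T) {w p : ℂ}
    {B : Set (Fin k)} (hw : Harm T w B) {m : Fin k} (hf : ∃ᶠ x in 𝓝[sphere w 1] p, m ∉ T x)
    (hs : T p \ {m} ⊆ T w) : B ⊆ T p \ {m} := by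
  have g1 : ∀ᶠ x in 𝓝[sphere w 1] p, T x ⊆ T p := mem_nhdsWithin_of_mem_nhds (h.nhd p)
  have g2 : ∀ᶠ x in 𝓝[sphere w 1] p, dist x w = 1 := self_mem_nhdsWithin
  obtain ⟨x, hx1, hx2, hx3⟩ := (hf.and_eventually (g1.and g2)).exists
  have h1 : T x ⊆ T p \ {m} := fun i hi => ⟨hx2 hi, fun him => hx1 (by
    have him : i = m := him
    exact him ▸ hi)⟩
  exact (hw.h1 x hx3 (h1.trans hs)).trans h1

variable {U : Fin 6 → Set ℂ} {T : ℂ → Set (Fin 6)}

namespace DP

variable {z y : ℂ} {A B : Set (Fin 6)}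

theorem mem_cl (h : Irr U T) (P : DP T z y A B) {ξ : ℂ} (hξ : ξ ∈ closure (Dir T z)) :
    ‖ξ‖ = 1 ∧ A ⊆ T (z + ξ) := by
  constructor
  · have h1 : IsClosed {x : ℂ | ‖x‖ = 1} := isClosed_eq continuous_norm continuous_const
    exact closure_minimal (fun x hx => hx.1) h1 hξ
  · intro i hi
    have hc : Continuous fun x : ℂ => z + x := continuous_const.add continuous_id
    have h1 : IsClosed {x : ℂ | i ∈ T (z + x)} := (h.closed i).preimage hc
    refine closure_minimal (fun x hx => ?_) h1 hξ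
    exact P.hz.h1 (z + x) (by rw [dist_eq_norm, add_sub_cancel_left]; exact hx.1) hx.2 hi

/-- partners of a colour of `A` of a point in an arc are on the line through the centre -/
theorem line (h : Irr U T) (P : DP T z y A B) {v w : ℂ} (hv : dist v z = 1) (hvz : T v ⊆ T z)
    (hvw : dist v w = 1) {a : Fin 6} (ha : a ∈ A) (haw : a ∈ T w) : w = z ∨ w + z = 2 * v := by
  refine h.mx.partner_line (u := z) (p := v) (t := a) hv ?_ hvw (h.sub w haw)
  filter_upwards [mem_nhdsWithin_of_mem_nhds (h.nhd v), self_mem_nhdsWithin] with x hx hx1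
  exact h.sub x (P.hz.h1 x hx1 (hx.trans hvz) ha)

theorem neA (P : DP T z y A B) : A.Nonempty := by
  rw [← Set.ncard_pos (Set.toFinite _), P.hz.cardA]; norm_num

/-- the opposite of `y - z` is not in the closure -/
theorem not_axis1 (h : Irr U T) (P : DP T z y A B) : z - y ∉ closure (Dir T z) := by
  intro hcl
  have hc : Continuous fun x : ℂ => y + x := continuous_const.add continuous_id
  have c1 : Tendsto (fun x : ℂ => y + x) (𝓝 (z - y)) (𝓝 z) := by
    have := hc.tendsto (z - y)
    rwa [add_sub_cancel] at this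
  have e1 : ∀ᶠ x in 𝓝 (z - y), T (y + x) ⊆ T z := c1.eventually (h.nhd z)
  have hn1 : ‖z - y‖ = 1 := by rw [← dist_eq_norm]; exact P.d
  -- a direction different from `z - y`
  obtain ⟨ξ, hξ, hξ1, hξ2⟩ : ∃ ξ ∈ Dir T z, ξ ≠ z - y ∧ T (y + ξ) ⊆ T z := by
    by_cases h0 : z - y ∈ Dir T z
    · have hc2 : Continuous fun t : ℝ => (z - y) * cis t := continuous_const.mul continuous_cis
      have e0 : (z - y) * cis 0 = z - y := by rw [cis_zero394, mul_one]
      have c2 : Tendsto (fun t : ℝ => (z - y) * cis t) (𝓝 0) (𝓝 (z - y)) := by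
        have := hc2.tendsto 0
        rwa [e0] at this
      have e2 : ∀ᶠ t in 𝓝 (0 : ℝ), T (y + (z - y) * cis t) ⊆ T z := c2.eventually e1
      have c3 : Tendsto (fun t : ℝ => z + (z - y) * cis t) (𝓝 0) (𝓝 (z + (z - y))) :=
        tendsto_const_nhds.add c2
      have e3 : ∀ᶠ t in 𝓝 (0 : ℝ), T (z + (z - y) * cis t) ⊆ T z :=
        (c3.eventually (h.nhd _)).mono fun t ht => ht.trans h0.2
      obtain ⟨δ, hδ, hb⟩ := Metric.eventually_nhds_iff.1 (e2.and e3)
      set t := min (δ / 2) 1 with ht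
      have ht0 : 0 < t := lt_min (by linarith) one_pos
      have htd : t < δ := lt_of_le_of_lt (min_le_left _ _) (by linarith)
      have ht1 : t ≤ 1 := min_le_right _ _
      obtain ⟨g1, g2⟩ := hb (y := t) (by rw [Real.dist_eq, sub_zero, abs_of_pos ht0]; exact htd)
      refine ⟨(z - y) * cis t, ⟨by rw [norm_mul, hn1, norm_cis, one_mul], g2⟩, ?_, g1⟩
      intro h3
      have h4 : cis t = 1 := by
        have hne : z - y ≠ 0 := fun h5 => by rw [h5, norm_zero] at hn1; exact one_ne_zero hn1.symm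
        refine mul_left_cancel₀ hne ?_
        rw [mul_one]; exact h3
      have h5 := congrArg Complex.im h4
      have h6 : (cis t).im = Real.sin t := by simp [cis, Complex.exp_ofReal_mul_I_im]
      rw [h6, Complex.one_im] at h5
      have := Real.sin_pos_of_pos_of_lt_pi ht0 (by linarith [Real.pi_gt_three])
      linarith
    · rw [mem_closure_iff_frequently] at hcl
      obtain ⟨ξ, hξ, h1⟩ := (hcl.and_eventually e1).exists
      exact ⟨ξ, hξ, fun h2 => h0 (h2 ▸ hξ), h1⟩
  have hv : dist (z + ξ) z = 1 := by rw [dist_eq_norm, add_sub_cancel_left]; exact hξ.1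
  have hvw : dist (z + ξ) (y + ξ) = 1 := by rw [dist_add_right]; exact P.d
  have hsub : T (y + ξ) ⊆ T y := by
    intro i hi
    rw [P.cy]
    intro hiA
    rcases P.line h hv hξ.2 hvw hiA hi with h4 | h4
    · exact hξ1 (by rw [← h4]; ring)
    · have h5 : z + ξ = y := by linear_combination -h4
      have h6 := hξ.2
      rw [h5, P.cy, P.cz] at h6
      obtain ⟨e, he⟩ : B.Nonempty := P.symm.neA
      exact h6 (Set.disjoint_right.1 P.disj he) he
  have h7 := P.hy.h1 (y + ξ) (by rw [dist_eq_norm, add_sub_cancel_left]; exact hξ.1) hsub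
  obtain ⟨e, he⟩ : B.Nonempty := P.symm.neA
  have h8 := hξ2 (h7 he)
  rw [P.cz] at h8
  exact h8 he

theorem not_axis2 (h : Irr U T) (P : DP T z y A B) : y - z ∉ closure (Dir T z) := by
  intro hcl
  have h1 := (P.mem_cl h hcl).2
  rw [add_sub_cancel, P.cy] at h1
  obtain ⟨a, ha⟩ := P.neA
  exact h1 ha ha

theorem dir_sub9 (h : Irr U T) (P : DP T z y A B) : Dir T z ⊆ Dir T y := by
  intro ξ hξ
  refine ⟨hξ.1, fun i hi => ?_⟩
  rw [P.cy]
  intro hiA
  have hv : dist (z + ξ) z = 1 := by rw [dist_eq_norm, add_sub_cancel_left]; exact hξ.1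
  have hvw : dist (z + ξ) (y + ξ) = 1 := by rw [dist_add_right]; exact P.d
  rcases P.line h hv hξ.2 hvw hiA hi with h4 | h4
  · refine P.not_axis1 h (subset_closure ?_)
    have : z - y = ξ := by rw [← h4]; ring
    rw [this]; exact hξ
  · refine P.not_axis2 h (subset_closure ?_)
    have : y - z = ξ := by linear_combination h4
    rw [this]; exact hξ

theorem dir_eq9 (h : Irr U T) (P : DP T z y A B) : Dir T z = Dir T y :=
  Subset.antisymm (P.dir_sub9 h) (P.symm.dir_sub9 h)

theorem not_axis9 (h : Irr U T) (P : DP T z y A B) :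
    z - y ∉ closure (Dir T z) ∧ y - z ∉ closure (Dir T z) := ⟨P.not_axis1 h, P.not_axis2 h⟩

/-- the broken pair of an end is not `A` -/
theorem not_layer (h : Irr U T) (P : DP T z y A B) {ξ : ℂ} (hξ : ξ ∈ closure (Dir T z))
    (hn : ¬ T (z + ξ) ⊆ T z) {A' : Set (Fin 6)} (hA' : Harm T (z + ξ) A') : ¬ A' ⊆ A := by
  intro hsub
  have hAA : A' = A :=
    Set.eq_of_subset_of_ncard_le hsub (by rw [hA'.cardA, P.hz.cardA]) (Set.toFinite _)
  have hc : Continuous fun x : ℂ => z + x := continuous_const.add continuous_id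
  have e1 : ∀ᶠ x in 𝓝 ξ, A' ⊆ T (z + x) → T (z + x) = T (z + ξ) :=
    (hc.tendsto ξ).eventually (hA'.layerE h)
  rw [mem_closure_iff_frequently] at hξ
  obtain ⟨x, hx, h1⟩ := (hξ.and_eventually e1).exists
  have h2 := P.hz.h1 (z + x) (by rw [dist_eq_norm, add_sub_cancel_left]; exact hx.1) hx.2
  rw [← hAA] at h2
  exact hn (by rw [← h1 h2]; exact hx.2)

/-- an end has a colour outside both broken pairs -/
theorem ends_C (F : Fr U T) (P : DP T z y A B) {ξ : ℂ} (hξ : ξ ∈ closure (Dir T z))
    (hn : ¬ T (z + ξ) ⊆ T z) : ∃ s ∈ T z \ A, s ∈ T (z + ξ) := by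
  have h := F.irr
  by_contra hcon
  push Not at hcon
  have hξy : ξ ∈ closure (Dir T y) := by rw [← P.dir_eq9 h]; exact hξ
  have hny : ¬ T (y + ξ) ⊆ T y := by
    intro h1
    have h2 : ξ ∈ Dir T y := ⟨(P.mem_cl h hξ).1, h1⟩
    rw [← P.dir_eq9 h] at h2
    exact hn h2.2
  obtain ⟨hn1, hAv⟩ := P.mem_cl h hξ
  obtain ⟨-, hBw⟩ := P.symm.mem_cl h hξy
  set v := z + ξ with hv
  set w := y + ξ with hw
  have hvz : dist v z = 1 := by rw [hv, dist_eq_norm, add_sub_cancel_left]; exact hn1
  have hwy : dist w y = 1 := by rw [hw, dist_eq_norm, add_sub_cancel_left]; exact hn1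
  have hvw : dist v w = 1 := by rw [hv, hw, dist_add_right]; exact P.d
  have hwv : dist w v = 1 := by rw [dist_comm]; exact hvw
  have hzv : dist z v = 1 := by rw [dist_comm]; exact hvz
  have hyw : dist y w = 1 := by rw [dist_comm]; exact hwy
  have hyz : dist y z = 1 := by rw [dist_comm]; exact P.d
  have ax1 : ξ ≠ z - y := fun h1 => P.not_axis1 h (h1 ▸ hξ)
  have ax2 : ξ ≠ y - z := fun h1 => P.not_axis2 h (h1 ▸ hξ)
  -- off the lines
  have o1 : y ≠ v := fun h1 => ax2 (by rw [h1, hv]; ring)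
  have o1' : y + v ≠ 2 * w := fun h1 => ax1 (by rw [hv, hw] at h1; linear_combination -h1)
  have o2 : z ≠ w := fun h1 => ax1 (by rw [h1, hw]; ring)
  have o2' : z + w ≠ 2 * v := fun h1 => ax2 (by rw [hv, hw] at h1; linear_combination -h1)
  have o4' : z + w ≠ 2 * y := fun h1 => ax2 (by rw [hw] at h1; linear_combination h1)
  -- the colours
  have hvAB : ∀ i ∈ T v, i ∈ A ∨ i ∈ B := by
    intro i hi
    by_cases hiB : i ∈ B
    · exact Or.inr hiB
    · left
      by_contra hiA
      exact hcon i ⟨by rw [P.cz]; exact hiB, hiA⟩ hi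
  obtain ⟨x, hxv, hxz⟩ := not_subset.1 hn
  have hxB : x ∈ B := by
    by_contra h1; exact hxz (by rw [P.cz]; exact h1)
  obtain ⟨t, htw, hty⟩ := not_subset.1 hny
  have htA : t ∈ A := by
    by_contra h1; exact hty (by rw [P.cy]; exact h1)
  obtain ⟨a0, ha0, hA⟩ := pair_other913 P.hz.cardA htA
  obtain ⟨x0, hx0, hB⟩ := pair_other913 P.hy.cardA hxB
  have ha0A : a0 ∈ A := by rw [hA]; simp
  have hx0B : x0 ∈ B := by rw [hB]; simp
  have hAz : ∀ i ∈ A, i ∈ T z := fun i hi => P.hz.sub hi
  have hBy : ∀ i ∈ B, i ∈ T y := fun i hi => P.hy.sub hi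
  have hAB : ∀ i, i ∈ A → i ∈ B → False := fun i h1 h2 => Set.disjoint_left.1 P.disj h1 h2
  by_cases hwC : ∃ s ∈ T z \ A, s ∈ T w
  · obtain ⟨s, hsC, hsw⟩ := hwC
    have hsB : s ∉ B := by have := hsC.1; rw [P.cz] at this; exact this
    have hsub : ({s, t} ∪ B : Set (Fin 6)) ⊆ T w := by
      rintro i ((rfl | rfl) | hi)
      · exact hsw
      · exact htw
      · exact hBw hi
    have hst : s ≠ t := fun h1 => hsC.2 (h1 ▸ htA)
    have hcard : ({s, t} ∪ B : Set (Fin 6)).ncard = 4 := by
      rw [Set.ncard_union_eq (by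
        rw [Set.disjoint_left]
        rintro i (rfl | rfl) hi
        · exact hsB hi
        · exact hAB _ htA hi) (Set.toFinite _) (Set.toFinite _), Set.ncard_pair hst, P.hy.cardA]
    have hTw : ({s, t} ∪ B : Set (Fin 6)) = T w :=
      Set.eq_of_subset_of_ncard_le hsub (by rw [hcard]; exact F.le4 w) (Set.toFinite _)
    obtain ⟨B', hB'⟩ := F.harm w (by rw [← hTw]; exact hcard)
    obtain ⟨s0, hs0, hC⟩ := pair_other913 P.hz.cardC hsC
    have hs0C : s0 ∈ T z \ A := by rw [hC]; simp
    have i1 := hB'.pull h (p := v) (m := a0)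
      (h.freq_not hvw hvz (hAz a0 ha0A) o2 o2') (by
        rintro i ⟨hi, hia⟩
        rw [← hTw]
        rcases hvAB i hi with h1 | h1
        · rw [hA] at h1
          rcases h1 with h1 | h1
          · left; right; exact h1
          · exact absurd h1 hia
        · right; exact h1)
    have i2 := hB'.pull h (p := y) (m := s0)
      (h.freq_not hyw hyz hs0C.1 o2 o4') (by
        rintro i ⟨hi, hia⟩
        rw [← hTw]
        by_cases hiB : i ∈ B
        · right; exact hiB
        · have : i ∈ T y \ B := ⟨hi, hiB⟩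
          rw [← P.hC, hC] at this
          rcases this with h1 | h1
          · left; left; exact h1
          · exact absurd h1 hia)
    refine P.symm.not_layer h hξy hny hB' fun i hi => ?_
    have j1 := (i1 hi).1
    have j2 := (i2 hi).1
    rcases hvAB i j1 with h1 | h1
    · exfalso; rw [P.cy] at j2; exact j2 h1
    · exact h1
  · push Not at hwC
    have hwAB : ∀ i ∈ T w, i ∈ A ∨ i ∈ B := by
      intro i hi
      by_cases hiB : i ∈ B
      · exact Or.inr hiB
      · left
        by_contra hiA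
        exact hwC i ⟨by rw [P.cz]; exact hiB, hiA⟩ hi
    by_cases ha0w : a0 ∈ T w
    · -- `T w = A ∪ B`
      have hAw : A ⊆ T w := by
        rw [hA]; rintro i (rfl | rfl)
        · exact htw
        · exact ha0w
      by_cases hx0v : x0 ∈ T v
      · have hBv : B ⊆ T v := by
          rw [hB]; rintro i (rfl | rfl)
          · exact hxv
          · exact hx0v
        have hTw : A ∪ B = T w := Subset.antisymm (union_subset hAw hBw) fun i hi => hwAB i hi
        have hcard : (T w).ncard = 4 := by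
          rw [← hTw, Set.ncard_union_eq P.disj (Set.toFinite _) (Set.toFinite _), P.hz.cardA,
            P.hy.cardA]
        obtain ⟨B', hB'⟩ := F.harm w hcard
        have hvw' : T v ⊆ T w := by
          rw [← hTw]; exact fun i hi => hvAB i hi
        refine P.symm.not_layer h hξy hny hB' fun i hi => ?_
        have j : ∀ a ∈ A, i ≠ a := by
          intro a ha
          have i1 := hB'.pull h (p := v) (m := a) (h.freq_not hvw hvz (hAz a ha) o2 o2')
            (sdiff_subset.trans hvw')
          exact fun h1 => (i1 hi).2 h1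
        have i1 := hB'.pull h (p := v) (m := a0) (h.freq_not hvw hvz (hAz a0 ha0A) o2 o2')
            (sdiff_subset.trans hvw')
        rcases hvAB i (i1 hi).1 with h1 | h1
        · exact absurd rfl (j i h1)
        · exact h1
      · -- `T v = A ∪ {x}`
        have hTv : T v ⊆ insert x A := by
          intro i hi
          rcases hvAB i hi with h1 | h1
          · exact Or.inr h1
          · rw [hB] at h1
            rcases h1 with h1 | h1
            · exact Or.inl h1
            · have h1 : i = x0 := h1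
              exact absurd (h1 ▸ hi) hx0v
        have h3 : (T v).ncard ≤ 3 := by
          have := Set.ncard_le_ncard hTv (Set.toFinite _)
          have h4 := Set.ncard_insert_le x A
          rw [P.hz.cardA] at h4
          omega
        rcases h.lemmaX (u := v) (p := w) (t := x0) hwv h3 (by
          intro i hi
          rcases hwAB i hi with h1 | h1
          · exact Or.inr (hAv h1)
          · rw [hB] at h1
            rcases h1 with h1 | h1
            · have h1 : i = x := h1
              exact Or.inr (h1 ▸ hxv)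
            · exact Or.inl h1) (v := y) hwy (h.sub y (hBy x0 hx0B)) with h4 | h4
        · exact o1 h4
        · exact o1' h4
    · -- `T w = B ∪ {t}`
      have hTw : T w ⊆ insert t B := by
        intro i hi
        rcases hwAB i hi with h1 | h1
        · rw [hA] at h1
          rcases h1 with h1 | h1
          · exact Or.inl h1
          · have h1 : i = a0 := h1
            exact absurd (h1 ▸ hi) ha0w
        · exact Or.inr h1
      have h3 : (T w).ncard ≤ 3 := by
        have := Set.ncard_le_ncard hTw (Set.toFinite _)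
        have h4 := Set.ncard_insert_le t B
        rw [P.hy.cardA] at h4
        omega
      rcases h.lemmaX (u := w) (p := v) (t := a0) hvw h3 (by
        intro i hi
        rcases hvAB i hi with h1 | h1
        · rw [hA] at h1
          rcases h1 with h1 | h1
          · have h1 : i = t := h1
            exact Or.inr (h1 ▸ htw)
          · exact Or.inl h1
        · exact Or.inr (hBw h1)) (v := z) hvz (h.sub z (hAz a0 ha0A)) with h4 | h4
      · exact o2 h4
      · exact o2' h4

/-- **Ends.** -/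
theorem ends9 (F : Fr U T) (P : DP T z y A B) {ξ : ℂ} (hξ : ξ ∈ closure (Dir T z))
    (hn : ¬ T (z + ξ) ⊆ T z) : ∃ s ∈ T z \ A, ∃ x ∈ B, T (z + ξ) = A ∪ {s, x} ∧
      ∃ A', Harm T (z + ξ) A' ∧ s ∈ A' ∧ A' ⊆ insert s A ∧
        ∃ s0 ∈ T z, s0 ∉ T (z + ξ) ∧ T z \ {s0} ⊆ T (z + ξ) ∧
          ∃ᶠ x in 𝓝[sphere (z + ξ) 1] z, s0 ∉ T x := by
  have h := F.irr
  obtain ⟨s, hsC, hsv⟩ := P.ends_C F hξ hn
  obtain ⟨hn1, hAv⟩ := P.mem_cl h hξ
  obtain ⟨x, hxv, hxz⟩ := not_subset.1 hn
  have hxB : x ∈ B := by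
    by_contra h1; exact hxz (by rw [P.cz]; exact h1)
  have hsB : s ∉ B := by have := hsC.1; rw [P.cz] at this; exact this
  have hsx : s ≠ x := fun h1 => hsB (h1 ▸ hxB)
  have hdis : Disjoint A {s, x} := by
    rw [Set.disjoint_left]
    rintro i hi (rfl | rfl)
    · exact hsC.2 hi
    · exact Set.disjoint_left.1 P.disj hi hxB
  have hcard : (A ∪ {s, x} : Set (Fin 6)).ncard = 4 := by
    rw [Set.ncard_union_eq hdis (Set.toFinite _) (Set.toFinite _), Set.ncard_pair hsx, P.hz.cardA]
  have hTv : T (z + ξ) = A ∪ {s, x} := by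
    symm
    refine Set.eq_of_subset_of_ncard_le ?_ (by rw [hcard]; exact F.le4 _) (Set.toFinite _)
    rintro i (hi | rfl | rfl)
    · exact hAv hi
    · exact hsv
    · exact hxv
  obtain ⟨A', hA'⟩ := F.harm (z + ξ) (by rw [hTv]; exact hcard)
  obtain ⟨s0, hs0, hC⟩ := pair_other913 P.hz.cardC hsC
  have hs0C : s0 ∈ T z \ A := by rw [hC]; simp
  have hs0v : s0 ∉ T (z + ξ) := by
    rw [hTv]
    rintro (h1 | h1 | h1)
    · exact hs0C.2 h1
    · exact hs0 h1
    · have h1 : s0 = x := h1
      have h2 := hs0C.1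
      rw [P.cz, h1] at h2
      exact h2 hxB
  have hsub : T z \ {s0} ⊆ T (z + ξ) := by
    rintro i ⟨hi, hi0⟩
    by_cases hiA : i ∈ A
    · exact hAv hiA
    · have : i ∈ T z \ A := ⟨hi, hiA⟩
      rw [hC] at this
      rcases this with h1 | h1
      · have h1 : i = s := h1
        rw [h1]; exact hsv
      · exact absurd h1 hi0
  have ax1 : ξ ≠ z - y := fun h1 => P.not_axis1 h (h1 ▸ hξ)
  have ax2 : ξ ≠ y - z := fun h1 => P.not_axis2 h (h1 ▸ hξ)
  have hf : ∃ᶠ x in 𝓝[sphere (z + ξ) 1] z, s0 ∉ T x := by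
    refine h.freq_not (r := y) ?_ P.d ?_ (fun h1 => ax2 (by rw [h1]; ring))
      (fun h1 => ax1 (by linear_combination h1))
    · rw [dist_comm, dist_eq_norm, add_sub_cancel_left]; exact hn1
    · have := hs0C
      rw [P.hC] at this
      exact this.1
  have hpull := hA'.pull h hf hsub
  have hAs : A' ⊆ insert s A := by
    intro i hi
    obtain ⟨h1, h2⟩ := hpull hi
    by_cases hiA : i ∈ A
    · exact Or.inr hiA
    · have : i ∈ T z \ A := ⟨h1, hiA⟩
      rw [hC] at this
      rcases this with h3 | h3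
      · exact Or.inl h3
      · exact absurd h3 h2
  refine ⟨s, hsC, x, hxB, hTv, A', hA', ?_, hAs, s0, hs0C.1, hs0v, hsub, hf⟩
  by_contra h1
  refine P.not_layer h hξ hn hA' fun i hi => ?_
  rcases hAs hi with h2 | h2
  · exact absurd (h2 ▸ hi) h1
  · exact h2

end DP

end Vale.Agent.P032.Six
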