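import Vale.Agent.P032.S5.H913.Ends
import Vale.Agent.P032.S5.H913.Hull

/-!
# P032: the next pair of a D-star pair has disjoint directions

`DP.disj_dir`, `DP.neg_cl`, `DP.neg_notMem` and the angle form `DP.next_psi`.
-/

open Set Filter Topology Metric

noncomputable section

namespace Vale.Agent.P032.Six

variable {U : Fin 6 → Set ℂ} {T : ℂ → Set (Fin 6)}

namespace DP

variable {z y : ℂ} {A B : Set (Fin 6)}

/-- disjoint directions -/
theorem disj_dir (F : Fr U T) (P : DP T z y A B) {ξ : ℂ} (hξ : ξ ∈ closure (Dir T z))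
    (hn : ¬ T (z + ξ) ⊆ T z) : Disjoint (Dir T (z + ξ)) (Dir T z) := by
  have h := F.irr
  obtain ⟨s, hsC, x, hxB, hTv, A', hA', hsA', hAs, s0, hs0z, hs0v, hsub, hf⟩ := P.ends9 F hξ hn
  obtain ⟨hn1, -⟩ := P.mem_cl h hξ
  rw [Set.disjoint_left]
  intro δ hδ hδz
  obtain ⟨τ, hτs, hA2⟩ := pair_other913 hA'.cardA hsA'
  have hτA' : τ ∈ A' := by rw [hA2]; simp
  have hτA : τ ∈ A := by
    rcases hAs hτA' with h1 | h1
    · exact absurd h1 hτs
    · exact h1
  have h1 : A' ⊆ T (z + ξ + δ) :=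
    hA'.h1 _ (by rw [dist_eq_norm, add_sub_cancel_left]; exact hδ.1) hδ.2
  have h2 : dist (z + δ) z = 1 := by rw [dist_eq_norm, add_sub_cancel_left]; exact hδz.1
  have h3 : dist (z + δ) (z + ξ + δ) = 1 := by
    rw [dist_comm, dist_eq_norm]
    have : z + ξ + δ - (z + δ) = ξ := by ring
    rw [this]; exact hn1
  rcases P.line h h2 hδz.2 h3 hτA (h1 hτA') with h4 | h4
  · have h5 := hδ.2
    rw [h4] at h5
    exact hs0v (h5 hs0z)
  · have h5 : ξ = δ := by linear_combination h4
    rw [h5] at hn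
    exact hn hδz.2

/-- the way back is not a direction of the next point -/
theorem neg_notMem (F : Fr U T) (P : DP T z y A B) {ξ : ℂ} (hξ : ξ ∈ closure (Dir T z))
    (hn : ¬ T (z + ξ) ⊆ T z) : ¬ T z ⊆ T (z + ξ) := by
  obtain ⟨s, hsC, x, hxB, hTv, A', hA', hsA', hAs, s0, hs0z, hs0v, hsub, hf⟩ := P.ends9 F hξ hn
  exact fun h1 => hs0v (h1 hs0z)

/-- the way back is in the closure of the directions of the next point, circle form -/
theorem freq_back (F : Fr U T) (P : DP T z y A B) {ξ : ℂ} (hξ : ξ ∈ closure (Dir T z))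
    (hn : ¬ T (z + ξ) ⊆ T z) : ∃ᶠ x in 𝓝[sphere (z + ξ) 1] z, T x ⊆ T (z + ξ) := by
  obtain ⟨s, hsC, x, hxB, hTv, A', hA', hsA', hAs, s0, hs0z, hs0v, hsub, hf⟩ := P.ends9 F hξ hn
  have g1 : ∀ᶠ x in 𝓝[sphere (z + ξ) 1] z, T x ⊆ T z := mem_nhdsWithin_of_mem_nhds (F.irr.nhd z)
  refine (hf.and_eventually g1).mono fun x hx => ?_
  refine subset_trans (fun i hi => ?_) hsub
  exact ⟨hx.2 hi, fun h1 => hx.1 (by
    have h1 : i = s0 := h1
    exact h1 ▸ hi)⟩

theorem closure_DO {n : ℂ} (hn : ‖n‖ = 1) {b : ℝ} (hb : b ∈ closure (DO T n z)) :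
    Complex.I * n * cis b ∈ closure (Dir T z) := by
  have hc : Continuous fun t : ℝ => Complex.I * n * cis t := continuous_const.mul continuous_cis
  exact map_mem_closure (f := fun t : ℝ => Complex.I * n * cis t) hc hb
    fun t ht => ⟨norm_In hn t, ht⟩

/-- **The next pair**, angle form. -/
theorem next_psi (F : Fr U T) {n : ℂ} (hn1 : ‖n‖ = 1) (P : DP T z (z + n) A B) {b : ℝ}
    (hb : b ∈ closure (DO T n z)) (hb' : b ∉ DO T n z) :
    Disjoint (DO T n (z + Complex.I * n * cis b)) (DO T n z) ∧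
      b + Real.pi ∈ closure (DO T n (z + Complex.I * n * cis b)) ∧
      b + Real.pi ∉ DO T n (z + Complex.I * n * cis b) := by
  have hξ := closure_DO (T := T) (z := z) hn1 hb
  have hn : ¬ T (z + Complex.I * n * cis b) ⊆ T z := hb'
  have epi : ∀ t : ℝ, cis (t + Real.pi) = -cis t := by
    intro t
    rw [cis, cis, Complex.ofReal_add, add_mul, Complex.exp_add, Complex.exp_pi_mul_I]; ring
  refine ⟨?_, ?_, ?_⟩
  · rw [Set.disjoint_left]
    intro t h1 h2
    have h3 : Complex.I * n * cis t ∈ Dir T (z + Complex.I * n * cis b) := ⟨norm_In hn1 t, h1⟩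
    have h4 : Complex.I * n * cis t ∈ Dir T z := ⟨norm_In hn1 t, h2⟩
    exact Set.disjoint_left.1 (P.disj_dir F hξ hn) h3 h4
  · have h1 := P.freq_back F hξ hn
    have hd : dist z (z + Complex.I * n * cis b) = 1 := by
      rw [dist_comm]; exact dist_In hn1 z b
    have h2 : ∃ᶠ t : ℝ in 𝓝 0, T (z + Complex.I * n * cis b +
        (z - (z + Complex.I * n * cis b)) * cis t) ⊆ T (z + Complex.I * n * cis b) := by
      intro h3
      exact h1 ((eventually_circle hd).2 h3)
    have hc : Tendsto (fun t : ℝ => b + Real.pi + t) (𝓝 0) (𝓝 (b + Real.pi)) := by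
      have : Continuous fun t : ℝ => b + Real.pi + t := continuous_const.add continuous_id
      have h4 := this.tendsto 0
      rwa [add_zero] at h4
    rw [mem_closure_iff_frequently]
    refine hc.frequently (h2.mono fun t ht => ?_)
    show T (z + Complex.I * n * cis b + Complex.I * n * cis (b + Real.pi + t)) ⊆ _
    have e : z + Complex.I * n * cis b + Complex.I * n * cis (b + Real.pi + t) =
        z + Complex.I * n * cis b + (z - (z + Complex.I * n * cis b)) * cis t := by
      rw [cis_add394, epi]; ring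
    rw [e]; exact ht
  · intro h1
    have h1 : T (z + Complex.I * n * cis b + Complex.I * n * cis (b + Real.pi)) ⊆
        T (z + Complex.I * n * cis b) := h1
    rw [epi] at h1
    have e : z + Complex.I * n * cis b + Complex.I * n * -cis b = z := by ring
    rw [e] at h1
    exact P.neg_notMem F hξ hn h1

/-- the end condition of the hull lemma, angle form -/
theorem hull_end (F : Fr U T) {n : ℂ} (hn1 : ‖n‖ = 1) (P : DP T z (z + n) A B) {b : ℝ}
    (hb1 : -(Real.pi / 2) < b) (hb2 : b < Real.pi / 2)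
    (hb : b ∈ closure (DO T n z) ∧ b ∉ DO T n z ∨
      b + Real.pi ∈ closure (DO T n z) ∧ b + Real.pi ∉ DO T n z) :
    (∀ t, -(Real.pi / 2) < t → t < Real.pi / 2 →
      (t ∈ DO T n z ∨ t + Real.pi ∈ DO T n z) → b < t) ∨
    (∀ t, -(Real.pi / 2) < t → t < Real.pi / 2 →
      (t ∈ DO T n z ∨ t + Real.pi ∈ DO T n z) → t < b) := by
  rcases hb with ⟨h1, h2⟩ | ⟨h1, h2⟩
  · obtain ⟨s, hs, hsv⟩ := P.ends_C F (closure_DO hn1 h1) h2
    exact P.hz.hull_psi F.irr hn1 P.hy P.hC hb1 hb2 (Or.inl rfl) hs hsv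
  · obtain ⟨s, hs, hsv⟩ := P.ends_C F (closure_DO hn1 h1) h2
    exact P.hz.hull_psi F.irr hn1 P.hy P.hC hb1 hb2 (Or.inr rfl) hs hsv

/-- the axis is not in the closure, angle form -/
theorem axis_psi (F : Fr U T) {n : ℂ} (hn1 : ‖n‖ = 1) (P : DP T z (z + n) A B) :
    -(Real.pi / 2) ∉ closure (DO T n z) ∧ Real.pi / 2 ∉ closure (DO T n z) := by
  have e1 : cis (Real.pi / 2) = Complex.I := by
    rw [cis]; push_cast; exact Complex.exp_pi_div_two_mul_I
  have e2 : cis (-(Real.pi / 2)) = -Complex.I := by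
    rw [cis]; push_cast
    rw [neg_mul, Complex.exp_neg, Complex.exp_pi_div_two_mul_I, Complex.inv_I]
  constructor
  · intro h1
    have h2 := closure_DO (T := T) (z := z) hn1 h1
    rw [e2] at h2
    refine P.not_axis2 F.irr ?_
    have e : z + n - z = Complex.I * n * -Complex.I := by
      have := Complex.I_mul_I
      linear_combination n * this
    rw [e]; exact h2
  · intro h1
    have h2 := closure_DO (T := T) (z := z) hn1 h1
    rw [e1] at h2
    refine P.not_axis1 F.irr ?_
    have e : z - (z + n) = Complex.I * n * Complex.I := by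
      have := Complex.I_mul_I
      linear_combination -n * this
    rw [e]; exact h2

end DP

end Vale.Agent.P032.Six
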