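import Vale.Agent.P032.S5.H913.Next
import Vale.Agent.P032.S5.H913.DEnd
import Vale.Agent.P032.S5.H25.Corner
import Vale.Agent.P032.S5.H306.Repro

/-!
# P032: there is no D-star pair in the frame without D-points
-/

open Set Filter Topology Metric

noncomputable section

namespace Vale.Agent.P032.Six

variable {U : Fin 6 → Set ℂ} {T : ℂ → Set (Fin 6)}

namespace DP

variable {z y : ℂ} {A B : Set (Fin 6)}

/-- the two ends in a boundary direction are again a D-star pair -/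
theorem next_pair (F : Fr U T) (P : DP T z y A B) {ξ : ℂ} (hξ : ξ ∈ closure (Dir T z))
    (hn : ¬ T (z + ξ) ⊆ T z) : ∃ A' B', DP T (z + ξ) (y + ξ) A' B' := by
  have h := F.irr
  have hξy : ξ ∈ closure (Dir T y) := by rw [← P.dir_eq9 h]; exact hξ
  have hny : ¬ T (y + ξ) ⊆ T y := by
    intro h1
    have h2 : ξ ∈ Dir T y := ⟨(P.mem_cl h hξ).1, h1⟩
    rw [← P.dir_eq9 h] at h2
    exact hn h2.2
  have ax1 : ξ ≠ z - y := fun h1 => P.not_axis1 h (h1 ▸ hξ)
  have ax2 : ξ ≠ y - z := fun h1 => P.not_axis2 h (h1 ▸ hξ)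
  obtain ⟨s, hs, x, hx, hTv, A', hA', hsA', hAs, -⟩ := P.ends9 F hξ hn
  obtain ⟨s', hs', t, ht, hTw, B', hB', hsB', hBs, -⟩ := P.symm.ends9 F hξy hny
  exact ⟨A', B', P.repro F (P.mem_cl h hξ).1 ax1 ax2 hs hx hTv hA' hsA' hAs hs' ht hTw hB' hsB'
    hBs⟩

/-- **No D-star pair.** -/
theorem false913 (F : Fr U T) (P : DP T z y A B) : False := by
  set n : ℂ := y - z with hn
  have hn1 : ‖n‖ = 1 := by rw [hn, ← dist_eq_norm, dist_comm]; exact P.d
  have hy : y = z + n := by rw [hn]; ring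
  set S : Set ℂ := {z | ∃ A B, DP T z (z + n) A B} with hS
  have hz : z ∈ S := ⟨A, B, hy ▸ P⟩
  have hmeet : ∀ z ∈ S, (-(Real.pi / 6) ∈ closure (DO T n z) ∨ Real.pi / 6 ∈ closure (DO T n z)) ∧
      (-(Real.pi / 6) + Real.pi ∈ closure (DO T n z) ∨
        Real.pi / 6 + Real.pi ∈ closure (DO T n z)) := by
    rintro z ⟨A, B, P⟩
    have h1 := P.meets_DO F
    rwa [add_sub_cancel_left] at h1
  have hE := dstar_end S (DO T n) (fun z _ => DO_open F.irr n z)
    (by rintro z ⟨A, B, P⟩; exact (P.axis_psi F hn1).1)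
    (by rintro z ⟨A, B, P⟩; exact (P.axis_psi F hn1).2)
    (by rintro z ⟨A, B, P⟩ b hb1 hb2 hb; exact P.hull_end F hn1 hb1 hb2 hb)
    (fun z hz => (hmeet z hz).1) (fun z hz => (hmeet z hz).2)
    (by
      rintro z ⟨A, B, P⟩ b hb1 hb2 hb hb'
      obtain ⟨A', B', P'⟩ := P.next_pair F (closure_DO hn1 hb) hb'
      refine ⟨z + Complex.I * n * cis b, ⟨A', B', ?_⟩, P.next_psi F hn1 hb hb'⟩
      have e : z + Complex.I * n * cis b + n = z + n + Complex.I * n * cis b := by ring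
      rw [e]; exact P')
  rw [hE] at hz
  exact hz

end DP

/-- **No D-star pair**, plain form. -/
theorem Fr.no_star (F : Fr U T) {z y : ℂ} {A B : Set (Fin 6)} (hz : Harm T z A)
    (hy : Harm T y B) (d : dist z y = 1) : T z \ A ≠ T y \ B := fun hC =>
  (DP.of F.irr hz hy d hC).false913 F

end Vale.Agent.P032.Six
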