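import Vale.Agent.P032.S5.H827.Edge
import Vale.Agent.P032.S5.H80.Clean
import Vale.Agent.P032.S5.H394.Ends

/-!
# P032: sweeping by continua and the sides of a D-star pair

`Irr.sweep_in`, `Irr.sweep_out` : a connected set of `i`-coloured points from `z` to a point inside
(outside) the unit circle about `v` keeps the colour `i` near `v` inside (outside) the unit circle
about `z`.
`Harm.solid` : `|y - z| = 1`, the same two colours of `z` and `y` outside the broken pairs: the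
circle about an interior point of an arc of `S(y)` is of one colour on each side of `y`.
`Harm.sides` : the far colour and the near colour.
-/

open Set Filter Topology Metric

noncomputable section

namespace Vale.Agent.P032.Six

variable {k : ℕ} {U : Fin k → Set ℂ} {T : ℂ → Set (Fin k)}

/-- **Sweeping by a continuum**, inside. -/
theorem Irr.sweep_in (h : Irr U T) {Q : Set ℂ} (hQ : IsPreconnected Q) {z v x : ℂ} {i : Fin k}
    (hz : z ∈ Q) (hx : x ∈ Q) (hi : ∀ q ∈ Q, i ∈ T q) (hxv : dist x v < 1) :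
    ∀ᶠ g in 𝓝 v, i ∈ T g → dist z g ≤ 1 := by
  have hopen : IsOpen {g : ℂ | dist x g < 1} :=
    isOpen_lt (continuous_const.dist continuous_id) continuous_const
  filter_upwards [hopen.mem_nhds hxv] with g hg hig
  by_contra hcon
  push Not at hcon
  have hopen2 : IsOpen {g : ℂ | 1 < dist z g} :=
    isOpen_lt continuous_const (continuous_const.dist continuous_id)
  have g1 : ∀ᶠ w in 𝓝 g, dist x w < 1 := hopen.mem_nhds hg
  have g2 : ∀ᶠ w in 𝓝 g, 1 < dist z w := hopen2.mem_nhds hcon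
  obtain ⟨w, hw, hw1, hw2⟩ := ((h.pure g i hig).and_eventually (g1.and g2)).exists
  have hc : ContinuousOn (fun q : ℂ => dist q w) Q :=
    (continuous_id.dist continuous_const).continuousOn
  obtain ⟨q, hq, hq1⟩ := hQ.intermediate_value hx hz hc ⟨hw1.le, hw2.le⟩
  exact h.mx.notMem' (h.mem_of_single hw.subset) (by rw [dist_comm]; exact hq1) (h.sub q (hi q hq))

/-- **Sweeping by a continuum**, outside. -/
theorem Irr.sweep_out (h : Irr U T) {Q : Set ℂ} (hQ : IsPreconnected Q) {z v x : ℂ} {i : Fin k}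
    (hz : z ∈ Q) (hx : x ∈ Q) (hi : ∀ q ∈ Q, i ∈ T q) (hxv : 1 < dist x v) :
    ∀ᶠ g in 𝓝 v, i ∈ T g → 1 ≤ dist z g := by
  have hopen : IsOpen {g : ℂ | 1 < dist x g} :=
    isOpen_lt continuous_const (continuous_const.dist continuous_id)
  filter_upwards [hopen.mem_nhds hxv] with g hg hig
  by_contra hcon
  push Not at hcon
  have hopen2 : IsOpen {g : ℂ | dist z g < 1} :=
    isOpen_lt (continuous_const.dist continuous_id) continuous_const
  have g1 : ∀ᶠ w in 𝓝 g, 1 < dist x w := hopen.mem_nhds hg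
  have g2 : ∀ᶠ w in 𝓝 g, dist z w < 1 := hopen2.mem_nhds hcon
  obtain ⟨w, hw, hw1, hw2⟩ := ((h.pure g i hig).and_eventually (g1.and g2)).exists
  have hc : ContinuousOn (fun q : ℂ => dist q w) Q :=
    (continuous_id.dist continuous_const).continuousOn
  obtain ⟨q, hq, hq1⟩ := hQ.intermediate_value hz hx hc ⟨hw2.le, hw1.le⟩
  exact h.mx.notMem' (h.mem_of_single hw.subset) (by rw [dist_comm]; exact hq1) (h.sub q (hi q hq))

/-- the two half branches of `S(q)` at `y` are on different sides of `S(z)` -/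
theorem branch_sides {q y z : ℂ} (hyq : dist y q = 1) (hyz : dist y z = 1) (h1 : q ≠ z)
    (h2 : q + z ≠ 2 * y) : ∃ τ : ℝ, (τ = 1 ∨ τ = -1) ∧ 0 < τ * cr (y - q) (y - z) ∧
      (∀ᶠ t : ℝ in 𝓝[>] 0, 1 < dist (q + (y - q) * cis (τ * t)) z) ∧
      (∀ᶠ t : ℝ in 𝓝[>] 0, dist (q + (y - q) * cis (-τ * t)) z < 1) := by
  rcases lt_or_gt_of_ne (cr_ne hyq hyz h1 h2) with h3 | h3
  · refine ⟨-1, Or.inr rfl, by linarith, arc_out hyz (by linarith), ?_⟩
    rw [neg_neg]
    exact arc_in hyz (by linarith)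
  · exact ⟨1, Or.inl rfl, by linarith, arc_out hyz (by linarith), arc_in hyz (by linarith)⟩

/-- a property on both half branches -/
theorem of_branches {q y : ℂ} (hyq : dist y q = 1) {p : ℂ → Prop} (h0 : p y) {τ : ℝ}
    (hτ : τ = 1 ∨ τ = -1) (h1 : ∀ᶠ t : ℝ in 𝓝[>] 0, p (q + (y - q) * cis (τ * t)))
    (h2 : ∀ᶠ t : ℝ in 𝓝[>] 0, p (q + (y - q) * cis (-τ * t))) :
    ∀ᶠ x in 𝓝[sphere q 1] y, p x := by
  obtain ⟨ε₁, hε₁, he1⟩ := mem_nhdsGT_iff_exists_Ioo_subset.1 h1
  obtain ⟨ε₂, hε₂, he2⟩ := mem_nhdsGT_iff_exists_Ioo_subset.1 h2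
  rcases hτ with rfl | rfl
  · refine eventually_circle_of hyq h0 hε₂ hε₁ (fun t ht => ?_) fun t ht => ?_
    · have := he2 ht
      have e : -(1 * t) = -1 * t := by ring
      rw [e]; exact this
    · have := he1 ht
      have e : -((-1) * t) = 1 * t := by ring
      rw [e]; exact this
  · refine eventually_circle_of hyq h0 hε₁ hε₂ (fun t ht => ?_) fun t ht => ?_
    · have := he1 ht
      have e : -(1 * t) = -1 * t := by ring
      rw [e]; exact this
    · have := he2 ht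
      have e : -((-1) * t) = - -1 * t := by ring
      rw [e]; exact this

/-- the half branch as a connected set with its end point `y` -/
theorem branch_conn (q y : ℂ) (τ : ℝ) {r : ℝ} :
    IsPreconnected ((fun t : ℝ => q + (y - q) * cis (τ * t)) '' Icc 0 r) := by
  refine isPreconnected_Icc.image _ (Continuous.continuousOn ?_)
  exact continuous_const.add (continuous_const.mul (continuous_cis.comp
    (continuous_const.mul continuous_id)))

/-- **one colour on a half branch** -/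
theorem Harm.solid_one (h : Irr U T) {y z q : ℂ} {A B : Set (Fin k)} (hz : Harm T z A)
    (hy : Harm T y B) (hC : T z \ A = T y \ B) (hyz : dist y z = 1) (hqy : dist q y = 1)
    (hJ : ∀ᶠ q' in 𝓝[sphere y 1] q, B ⊆ T q') {τ : ℝ} (_hτ : τ = 1 ∨ τ = -1)
    (hne : ∀ᶠ t : ℝ in 𝓝[>] 0, dist (q + (y - q) * cis (τ * t)) z ≠ 1) :
    ∃ i ∈ T y \ B, ∀ᶠ t : ℝ in 𝓝[>] 0, T (q + (y - q) * cis (τ * t)) = {i} := by
  have hyq : dist y q = 1 := by rw [dist_comm]; exact hqy
  obtain ⟨c, d, hcd, hCcd⟩ := Set.ncard_eq_two.1 hy.cardC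
  have e1 : ∀ᶠ x in 𝓝 y, T x ⊆ T y ∧ dist x y < 1 ∧
      (T z \ A ⊆ T x → dist x z = 1 ∨ 4 ≤ (T x).ncard) := by
    have g1 : ∀ᶠ x in 𝓝 y, dist x y < 1 := ball_mem_nhds y one_pos
    exact (h.nhd y).and (g1.and (hz.cd h hyz))
  have e2 : ∀ᶠ t : ℝ in 𝓝[>] 0, (t < 1) := mem_nhdsWithin_of_mem_nhds (Iio_mem_nhds one_pos)
  have key : ∀ᶠ t : ℝ in 𝓝[>] 0, T (q + (y - q) * cis (τ * t)) = {c} ∨
      T (q + (y - q) * cis (τ * t)) = {d} := by
    filter_upwards [(tendsto_arc q y τ).eventually e1, hne, e2, self_mem_nhdsWithin]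
      with t ⟨h1, h2, h3⟩ h4 h5 h6
    have h6 : 0 < t := h6
    set x := q + (y - q) * cis (τ * t) with hx
    have hxq : dist x q = 1 := dist_arc hyq _
    have hxy : x ≠ y := by
      intro hxy
      rw [hxy, dist_comm] at h4
      exact h4 (by rw [dist_comm]; exact hyz)
    have hw := h.mx.wedge hqy (P := B) (hJ.mono fun q' hq' => hq'.trans (h.sub q')) hxq hxy h2
    have hsub : T x ⊆ {c, d} := by
      intro i hi
      rw [← hCcd]
      exact ⟨h1 hi, fun hiB => hw i hiB (h.sub x hi)⟩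
    obtain ⟨i, hi⟩ := h.ne x
    by_cases hc : c ∈ T x
    · by_cases hd : d ∈ T x
      · exfalso
        rcases h3 (by rw [hC, hCcd]; exact insert_subset hc (singleton_subset_iff.2 hd)) with h7 | h7
        · exact h4 h7
        · have h8 := Set.ncard_le_ncard hsub (Set.toFinite _)
          rw [Set.ncard_pair hcd] at h8
          omega
      · left
        refine Subset.antisymm (fun m hm => ?_) (singleton_subset_iff.2 hc)
        rcases hsub hm with h7 | h7
        · exact h7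
        · exact absurd (h7 ▸ hm) hd
    · right
      have hsd : T x ⊆ {d} := fun m hm => by
        rcases hsub hm with h7 | h7
        · exact absurd (h7 ▸ hm) hc
        · exact h7
      exact Subset.antisymm hsd (singleton_subset_iff.2 (by
        have := hsd hi
        rw [mem_singleton_iff] at this
        exact this ▸ hi))
  obtain ⟨ε, hε, he⟩ := mem_nhdsGT_iff_exists_Ioo_subset.1 key
  have hε : 0 < ε := hε
  set F : ℝ → ℂ := fun t => q + (y - q) * cis (τ * t) with hF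
  have hFc : Continuous F := continuous_const.add (continuous_const.mul (continuous_cis.comp
    (continuous_const.mul continuous_id)))
  have hmem : ∀ t ∈ Ioo 0 ε, T (F t) = {c} ∨ T (F t) = {d} := fun t ht => he ht
  by_cases hex : ∃ t ∈ Ioo 0 ε, T (F t) = {c}
  · refine ⟨c, by rw [hCcd]; simp, ?_⟩
    by_contra hcon
    have hex2 : ∃ t ∈ Ioo 0 ε, T (F t) = {d} := by
      by_contra hno
      push Not at hno
      refine hcon ?_
      filter_upwards [Ioo_mem_nhdsGT hε] with t ht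
      exact (hmem t ht).resolve_right (hno t ht)
    obtain ⟨t1, ht1, h1⟩ := hex
    obtain ⟨t2, ht2, h2⟩ := hex2
    obtain ⟨t, ht, htc, htd⟩ := isPreconnected_closed_iff.1 (isPreconnected_Ioo (a := (0:ℝ)) (b := ε))
      (F ⁻¹' {x | c ∈ T x}) (F ⁻¹' {x | d ∈ T x}) ((h.closed c).preimage hFc)
      ((h.closed d).preimage hFc)
      (fun t ht => by
        rcases hmem t ht with h3 | h3
        · left; show c ∈ T (F t); rw [h3]; rfl
        · right; show d ∈ T (F t); rw [h3]; rfl)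
      ⟨t1, ht1, by show c ∈ T (F t1); rw [h1]; rfl⟩ ⟨t2, ht2, by show d ∈ T (F t2); rw [h2]; rfl⟩
    have htc : c ∈ T (F t) := htc
    have htd : d ∈ T (F t) := htd
    rcases hmem t ht with h3 | h3
    · rw [h3] at htd; exact hcd htd.symm
    · rw [h3] at htc; exact hcd htc
  · push Not at hex
    refine ⟨d, by rw [hCcd]; simp, ?_⟩
    filter_upwards [Ioo_mem_nhdsGT hε] with t ht
    exact (hmem t ht).resolve_left (hex t ht)

/-- **The two half branches**: the far half branch has one colour, the near one the other. -/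
theorem Harm.solid (h : Irr U T) {y z q : ℂ} {A B : Set (Fin k)} (hz : Harm T z A)
    (hy : Harm T y B) (hC : T z \ A = T y \ B) (hyz : dist y z = 1) (hqy : dist q y = 1)
    (hJ : ∀ᶠ q' in 𝓝[sphere y 1] q, B ⊆ T q') (h1 : q ≠ z) (h2 : q + z ≠ 2 * y) :
    ∃ τ : ℝ, (τ = 1 ∨ τ = -1) ∧ 0 < τ * cr (y - q) (y - z) ∧ ∃ c d, T y \ B = {c, d} ∧ c ≠ d ∧
      (∀ᶠ t : ℝ in 𝓝[>] 0, 1 < dist (q + (y - q) * cis (τ * t)) z ∧
        T (q + (y - q) * cis (τ * t)) = {c}) ∧
      (∀ᶠ t : ℝ in 𝓝[>] 0, dist (q + (y - q) * cis (-τ * t)) z < 1 ∧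
        T (q + (y - q) * cis (-τ * t)) = {d}) := by
  have hyq : dist y q = 1 := by rw [dist_comm]; exact hqy
  obtain ⟨τ, hτ, hs, ho, hi⟩ := branch_sides hyq hyz h1 h2
  have hτ' : -τ = 1 ∨ -τ = -1 := by
    rcases hτ with rfl | rfl
    · right; rfl
    · left; norm_num
  obtain ⟨c, hc, hcb⟩ := hz.solid_one h hy hC hyz hqy hJ hτ (ho.mono fun t ht => ht.ne')
  obtain ⟨d, hd, hdb⟩ := hz.solid_one h hy hC hyz hqy hJ hτ' (hi.mono fun t ht => ht.ne)
  have hcd : c ≠ d := by
    rintro rfl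
    have h3 : ∀ᶠ x in 𝓝[sphere q 1] y, c ∈ T x :=
      of_branches hyq hc.1 hτ (hcb.mono fun t ht => by rw [ht]; rfl)
        (hdb.mono fun t ht => by rw [ht]; rfl)
    rcases h.mx.partner_line hyq (h3.mono fun x hx => h.sub x hx) hyz
      (h.sub z (by have := hc; rw [← hC] at this; exact this.1)) with h4 | h4
    · exact h1 h4.symm
    · exact h2 (by rw [add_comm]; exact h4)
  refine ⟨τ, hτ, hs, c, d, ?_, hcd, ho.and hcb, hi.and hdb⟩
  refine (Set.eq_of_subset_of_ncard_le (s := {c, d}) ?_ ?_ (Set.toFinite _)).symm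
  · rintro m (rfl | rfl)
    · exact hc
    · exact hd
  · rw [hy.cardC, Set.ncard_pair hcd]

/-- **Sides.** The colour `c` is far, the colour `d` is near, at `z`. -/
theorem Harm.sides (h : Irr U T) {y z : ℂ} {A B : Set (Fin k)} (hz : Harm T z A)
    (hy : Harm T y B) (hC : T z \ A = T y \ B) (hyz : dist y z = 1) :
    ∃ c d, T z \ A = {c, d} ∧ c ≠ d ∧
      ∀ᶠ g in 𝓝 z, (c ∈ T g → 1 ≤ dist y g) ∧ (d ∈ T g → dist y g ≤ 1) := by
  obtain ⟨p, hp, hJ⟩ := hy.arc
  obtain ⟨q, hq, hqy, hqz, hqz2, hJq⟩ := exists_generic (y := z) hp hJ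
  have hJ' : ∀ᶠ q' in 𝓝[sphere y 1] q, B ⊆ T q' :=
    Filter.Eventually.mono hJq fun q' (hq' : T q' = B) => hq'.ge
  have hyq : dist y q = 1 := by rw [dist_comm]; exact hqy
  obtain ⟨τ, hτ, hs, c, d, hcd, hne, ho, hi⟩ := hz.solid h hy hC hyz hqy hJ' hqz hqz2
  have e0 : ∀ τ : ℝ, q + (y - q) * cis (τ * 0) = y := by intro τ; simp [cis]
  have hcy : c ∈ T y := by
    have : c ∈ T y \ B := by rw [hcd]; simp
    exact this.1
  have hdy : d ∈ T y := by
    have : d ∈ T y \ B := by rw [hcd]; simp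
    exact this.1
  have s1 : ∀ᶠ g in 𝓝 z, c ∈ T g → 1 ≤ dist y g := by
    obtain ⟨ε, hε, he⟩ := mem_nhdsGT_iff_exists_Ioo_subset.1 ho
    have hε : 0 < ε := hε
    refine h.sweep_out (branch_conn q y τ (r := ε / 2))
      (x := q + (y - q) * cis (τ * (ε / 2 : ℝ))) ⟨0, ⟨le_rfl, by linarith⟩, e0 τ⟩
      ⟨ε / 2, ⟨by linarith, le_rfl⟩, rfl⟩ ?_ (he ⟨by linarith, by linarith⟩).1
    rintro _ ⟨t, ht, rfl⟩
    rcases eq_or_lt_of_le ht.1 with h3 | h3
    · subst h3
      simp only [e0]; exact hcy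
    · have := (he ⟨h3, by linarith [ht.2]⟩).2
      simp only [this]; rfl
  have s2 : ∀ᶠ g in 𝓝 z, d ∈ T g → dist y g ≤ 1 := by
    obtain ⟨ε, hε, he⟩ := mem_nhdsGT_iff_exists_Ioo_subset.1 hi
    have hε : 0 < ε := hε
    refine h.sweep_in (branch_conn q y (-τ) (r := ε / 2))
      (x := q + (y - q) * cis (-τ * (ε / 2 : ℝ))) ⟨0, ⟨le_rfl, by linarith⟩, e0 (-τ)⟩
      ⟨ε / 2, ⟨by linarith, le_rfl⟩, rfl⟩ ?_ (he ⟨by linarith, by linarith⟩).1
    rintro _ ⟨t, ht, rfl⟩
    rcases eq_or_lt_of_le ht.1 with h3 | h3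
    · subst h3
      simp only [e0]; exact hdy
    · have := (he ⟨h3, by linarith [ht.2]⟩).2
      simp only [this]; rfl
  exact ⟨c, d, hC ▸ hcd, hne, s1.and s2⟩

/-- one colour is absent far from `y` -/
theorem Harm.side (h : Irr U T) {y z : ℂ} {A B : Set (Fin k)} (hz : Harm T z A)
    (hy : Harm T y B) (hC : T z \ A = T y \ B) (hyz : dist y z = 1) :
    ∃ m ∈ T z \ A, ∀ᶠ p in 𝓝 z, 1 < dist p y → m ∉ T p := by
  obtain ⟨c, d, hcd, -, hev⟩ := hz.sides h hy hC hyz
  refine ⟨d, by rw [hcd]; simp, hev.mono fun p hp h1 h2 => ?_⟩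
  have := hp.2 h2
  rw [dist_comm] at this
  linarith

end Vale.Agent.P032.Six
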